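import Mathlib

/-!
P084, Lemma A.  A Lipschitz function whose derivative is almost everywhere bounded on the unit ball satisfies the
corresponding increment bound on the unit ball.
-/

open MeasureTheory Metric Set Module Filter Topology
open scoped NNReal ENNReal

namespace Vale.P084

variable {X : Type*} [NormedAddCommGroup X] [NormedSpace ℝ X] [FiniteDimensional ℝ X]
  [MeasurableSpace X] [BorelSpace X]

theorem hasDeriv_right {μ : Measure X} [μ.IsAddHaarMeasure] {g : X → ℝ} {K : ℝ≥0}
    (hg : LipschitzWith K g) (h : X) {B : Set X} (hB : MeasurableSet B) (hBfin : μ B < ⊤)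
    (hBb : Bornology.IsBounded B) (t : ℝ) :
    HasDerivWithinAt (fun t : ℝ => ∫ z in B, g (z + t • h) ∂μ)
      (∫ z in B, lineDeriv ℝ g (z + t • h) h ∂μ) (Ici t) t := by
  rw [← hasDerivWithinAt_Ioi_iff_Ici, hasDerivWithinAt_iff_tendsto_slope' (by simp)]
  set f : X → ℝ := fun z => g (z + t • h) with hf
  have hflip : LipschitzWith K f := by
    have : LipschitzWith 1 (fun z : X => z + t • h) := LipschitzWith.of_dist_le_mul (by simp)
    have h2 := hg.comp this
    rw [mul_one] at h2
    exact h2
  set ind : X → ℝ := B.indicator (fun _ => (1 : ℝ)) with hind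
  have hindint : Integrable ind μ := by
    rw [hind, integrable_indicator_iff hB]
    exact integrableOn_const hBfin.ne
  have hlim := LipschitzWith.integral_inv_smul_sub_mul_tendsto_integral_lineDeriv_mul
    (μ := μ) hflip hindint h
  have hint : ∀ u : ℝ, IntegrableOn (fun z => g (z + u • h)) B μ := by
    intro u
    have hc : Continuous (fun z => g (z + u • h)) := hg.continuous.comp (by fun_prop)
    obtain ⟨C, hC⟩ := hBb.closure.isCompact_closure.bddAbove_image
      (f := fun z => ‖g (z + u • h)‖) (hc.norm.continuousOn)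
    refine Measure.integrableOn_of_bounded (M := C) hBfin.ne hc.aestronglyMeasurable ?_
    filter_upwards [ae_restrict_mem hB] with z hz
    exact hC ⟨z, subset_closure (subset_closure hz), rfl⟩
  have hmul : ∀ F : X → ℝ, ∫ z, F z * ind z ∂μ = ∫ z in B, F z ∂μ := by
    intro F
    rw [← integral_indicator hB]
    congr 1
    ext z
    by_cases hz : z ∈ B <;> simp [hind, hz]
  have hline : ∀ z, lineDeriv ℝ f z h = lineDeriv ℝ g (z + t • h) h := by
    intro z
    simp only [lineDeriv, hf]
    congr 1
    ext s
    congr 1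
    abel
  have e1 : (∫ z, lineDeriv ℝ f z h * ind z ∂μ) = ∫ z in B, lineDeriv ℝ g (z + t • h) h ∂μ := by
    rw [hmul]
    exact integral_congr_ae (Eventually.of_forall fun z => hline z)
  rw [e1] at hlim
  have hshift : Tendsto (fun u : ℝ => u - t) (𝓝[>] t) (𝓝[>] 0) := by
    have h1 : Tendsto (fun u : ℝ => u - t) (𝓝 t) (𝓝 (t - t)) :=
      (continuous_id.sub continuous_const).tendsto t
    rw [sub_self] at h1
    refine tendsto_nhdsWithin_iff.mpr ⟨h1.mono_left nhdsWithin_le_nhds, ?_⟩
    filter_upwards [self_mem_nhdsWithin] with u hu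
    exact sub_pos.mpr (mem_Ioi.mp hu)
  refine (hlim.comp hshift).congr' ?_
  filter_upwards [self_mem_nhdsWithin] with u _
  simp only [Function.comp_apply]
  rw [hmul, slope_def_field, ← integral_sub (hint u) (hint t), ← integral_div]
  refine integral_congr_ae (Eventually.of_forall fun z => ?_)
  simp only [hf]
  rw [show z + (u - t) • h + t • h = z + u • h by rw [sub_smul]; abel]
  rw [smul_eq_mul, div_eq_inv_mul]

/-- **Lemma A.** -/
theorem increment_le {μ : Measure X} [μ.IsAddHaarMeasure] {g : X → ℝ} {K : ℝ≥0}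
    (hg : LipschitzWith K g) {h x : X} {c : ℝ} (hx : ‖x‖ < 1) (hxh : ‖x + h‖ < 1)
    (hb : ∀ᵐ z ∂μ, z ∈ closedBall (0 : X) 1 → lineDeriv ℝ g z h ≤ c) :
    g (x + h) - g x ≤ c := by
  by_contra hcon
  push Not at hcon
  -- choose a small ball
  have hcont : Continuous (fun z => g (z + h) - g z) :=
    (hg.continuous.comp (by fun_prop)).sub hg.continuous
  set ε : ℝ := (g (x + h) - g x - c) / 2 with hε
  have hεpos : 0 < ε := by rw [hε]; linarith
  have h1 : ∀ᶠ z in 𝓝 x, c + ε < g (z + h) - g z := by
    have : c + ε < g (x + h) - g x := by rw [hε]; linarith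
    exact hcont.continuousAt.eventually (lt_mem_nhds this)
  obtain ⟨r1, hr1, hball⟩ := Metric.eventually_nhds_iff_ball.mp h1
  set ρ : ℝ := max ‖x‖ ‖x + h‖ with hρ
  have hρ1 : ρ < 1 := max_lt hx hxh
  set r : ℝ := min r1 (1 - ρ) with hr
  have hrpos : 0 < r := lt_min hr1 (by linarith)
  set B : Set X := ball x r with hBdef
  have hBm : MeasurableSet B := measurableSet_ball
  have hBfin : μ B < ⊤ := measure_ball_lt_top
  have hBpos : 0 < (μ B).toReal :=
    ENNReal.toReal_pos (measure_ball_pos μ x hrpos).ne' hBfin.ne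
  have hin : ∀ z ∈ B, ∀ t ∈ Icc (0 : ℝ) 1, z + t • h ∈ closedBall (0 : X) 1 := by
    intro z hz t ht
    rw [mem_closedBall, dist_zero_right]
    have e1 : z + t • h = (z - x) + ((1 - t) • x + t • (x + h)) := by
      rw [sub_smul, one_smul, smul_add]; abel
    have e2 : ‖(1 - t) • x + t • (x + h)‖ ≤ ρ := by
      calc ‖(1 - t) • x + t • (x + h)‖ ≤ ‖(1 - t) • x‖ + ‖t • (x + h)‖ := norm_add_le _ _
        _ = (1 - t) * ‖x‖ + t * ‖x + h‖ := by
            rw [norm_smul, norm_smul, Real.norm_eq_abs, Real.norm_eq_abs, abs_of_nonneg ht.1,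
              abs_of_nonneg (by linarith [ht.2])]
        _ ≤ (1 - t) * ρ + t * ρ := by
            have := le_max_left ‖x‖ ‖x + h‖
            have := le_max_right ‖x‖ ‖x + h‖
            have h0 := ht.1
            have h0' : 0 ≤ 1 - t := by linarith [ht.2]
            gcongr
        _ = ρ := by ring
    have e3 : ‖z - x‖ < r := by rwa [← dist_eq_norm, ← mem_ball]
    rw [e1]
    have e4 := norm_add_le (z - x) ((1 - t) • x + t • (x + h))
    have e5 : r ≤ 1 - ρ := min_le_right _ _
    linarith
  set G : ℝ → ℝ := fun t => ∫ z in B, g (z + t • h) ∂μ with hG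
  have hder : ∀ t : ℝ, HasDerivWithinAt G (∫ z in B, lineDeriv ℝ g (z + t • h) h ∂μ) (Ici t) t :=
    fun t => hasDeriv_right hg h hBm hBfin isBounded_ball t
  have hGlip : LipschitzWith (Real.toNNReal (K * ‖h‖ * (μ B).toReal)) G := by
    refine LipschitzWith.of_dist_le_mul fun s t => ?_
    have hint : ∀ u : ℝ, IntegrableOn (fun z => g (z + u • h)) B μ := by
      intro u
      have hc : Continuous (fun z => g (z + u • h)) := hg.continuous.comp (by fun_prop)
      obtain ⟨C, hC⟩ := (isBounded_ball (x := x) (r := r)).closure.isCompact_closure.bddAbove_image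
        (f := fun z => ‖g (z + u • h)‖) (hc.norm.continuousOn)
      refine Measure.integrableOn_of_bounded (M := C) hBfin.ne hc.aestronglyMeasurable ?_
      filter_upwards [ae_restrict_mem hBm] with z hz
      exact hC ⟨z, subset_closure (subset_closure hz), rfl⟩
    rw [dist_eq_norm, hG]
    simp only
    rw [← integral_sub (hint s) (hint t)]
    have h2 : ‖∫ z in B, (g (z + s • h) - g (z + t • h)) ∂μ‖ ≤ (K * (|s - t| * ‖h‖)) * (μ B).toReal := by
      have := norm_setIntegral_le_of_norm_le_const (μ := μ) (s := B)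
        (f := fun z => g (z + s • h) - g (z + t • h)) (C := K * (|s - t| * ‖h‖)) hBfin (by
          intro z _
          have := hg.norm_sub_le (z + s • h) (z + t • h)
          refine this.trans (le_of_eq ?_)
          congr 1
          rw [add_sub_add_left_eq_sub, ← sub_smul, norm_smul, Real.norm_eq_abs])
      simpa [Measure.real] using this
    refine h2.trans (le_of_eq ?_)
    rw [Real.coe_toNNReal _ (by positivity), Real.dist_eq]
    ring
  have hbound : ∀ t ∈ Ico (0 : ℝ) 1,
      ∫ z in B, lineDeriv ℝ g (z + t • h) h ∂μ ≤ c * (μ B).toReal := by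
    intro t ht
    have hae : ∀ᵐ z ∂μ, z ∈ B → lineDeriv ℝ g (z + t • h) h ≤ c := by
      have h3 : ∀ᵐ z ∂μ, (z + t • h) ∈ closedBall (0 : X) 1 → lineDeriv ℝ g (z + t • h) h ≤ c := by
        exact (measurePreserving_add_right μ (t • h)).quasiMeasurePreserving.ae hb
      filter_upwards [h3] with z hz hzB
      exact hz (hin z hzB t ⟨ht.1, ht.2.le⟩)
    have hmeas : AEStronglyMeasurable (fun z => lineDeriv ℝ g (z + t • h) h) μ := by
      have := (measurable_lineDeriv (𝕜 := ℝ) (v := h) hg.continuous)
      exact (this.comp (by fun_prop : Measurable fun z : X => z + t • h)).aestronglyMeasurable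
    have hint : IntegrableOn (fun z => lineDeriv ℝ g (z + t • h) h) B μ := by
      refine Measure.integrableOn_of_bounded (M := K * ‖h‖) hBfin.ne hmeas ?_
      exact Eventually.of_forall fun z => norm_lineDeriv_le_of_lipschitz ℝ hg
    calc ∫ z in B, lineDeriv ℝ g (z + t • h) h ∂μ ≤ ∫ z in B, c ∂μ := by
          refine setIntegral_mono_on_ae hint (integrableOn_const hBfin.ne) hBm ?_
          exact hae
      _ = c * (μ B).toReal := by
          rw [setIntegral_const, smul_eq_mul, mul_comm, Measure.real]
  have hfin := image_le_of_deriv_right_le_deriv_boundary (f := G)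
    (f' := fun t => ∫ z in B, lineDeriv ℝ g (z + t • h) h ∂μ) (a := 0) (b := 1)
    (B := fun t => G 0 + t * (c * (μ B).toReal)) (B' := fun _ => c * (μ B).toReal)
    hGlip.continuous.continuousOn (fun t _ => hder t) (by simp) (by fun_prop)
    (fun t _ => by
      have : HasDerivAt (fun t : ℝ => G 0 + t * (c * (μ B).toReal)) (c * (μ B).toReal) t := by
        simpa using ((hasDerivAt_id t).mul_const (c * (μ B).toReal)).const_add (G 0)
      exact this.hasDerivWithinAt)
    hbound (x := 1) ⟨zero_le_one, le_rfl⟩
  simp only [one_mul] at hfin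
  -- lower bound
  have hint0 : ∀ u : ℝ, IntegrableOn (fun z => g (z + u • h)) B μ := by
    intro u
    have hc : Continuous (fun z => g (z + u • h)) := hg.continuous.comp (by fun_prop)
    obtain ⟨C, hC⟩ := (isBounded_ball (x := x) (r := r)).closure.isCompact_closure.bddAbove_image
      (f := fun z => ‖g (z + u • h)‖) (hc.norm.continuousOn)
    refine Measure.integrableOn_of_bounded (M := C) hBfin.ne hc.aestronglyMeasurable ?_
    filter_upwards [ae_restrict_mem hBm] with z hz
    exact hC ⟨z, subset_closure (subset_closure hz), rfl⟩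
  have hlow : (c + ε) * (μ B).toReal ≤ G 1 - G 0 := by
    rw [hG]
    simp only
    rw [← integral_sub (hint0 1) (hint0 0)]
    calc (c + ε) * (μ B).toReal = ∫ z in B, (c + ε) ∂μ := by
          rw [setIntegral_const, smul_eq_mul, mul_comm, Measure.real]
      _ ≤ ∫ z in B, (g (z + (1 : ℝ) • h) - g (z + (0 : ℝ) • h)) ∂μ := by
          refine setIntegral_mono_on (integrableOn_const hBfin.ne)
            ((hint0 1).sub (hint0 0)) hBm ?_
          intro z hz
          have := hball z (ball_subset_ball (min_le_left _ _) hz)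
          simpa using this.le
  nlinarith

end Vale.P084
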