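import Mathlib

/-!
P084, conclusion.  If the surjection `f` of unit spheres preserves Euclidean distances, it is linear.
-/

open Metric Set Module Filter Topology
open scoped NNReal ENNReal RealInnerProductSpace

namespace Vale.P084

/-- Gram comparison: equal Gram matrices give equal norms of linear combinations. -/
theorem norm_lc_eq {S E F : Type*} [NormedAddCommGroup E] [InnerProductSpace ℝ E]
    [NormedAddCommGroup F] [InnerProductSpace ℝ F] {s : S → E} {t : S → F}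
    (h : ∀ x y, ⟪t x, t y⟫ = ⟪s x, s y⟫) (c : S →₀ ℝ) :
    ‖Finsupp.linearCombination ℝ t c‖ = ‖Finsupp.linearCombination ℝ s c‖ := by
  have key : ‖Finsupp.linearCombination ℝ t c‖ ^ 2 = ‖Finsupp.linearCombination ℝ s c‖ ^ 2 := by
    rw [← real_inner_self_eq_norm_sq, ← real_inner_self_eq_norm_sq,
      Finsupp.linearCombination_apply, Finsupp.linearCombination_apply]
    simp only [Finsupp.sum, sum_inner, inner_sum, real_inner_smul_left, real_inner_smul_right, h]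
  exact (sq_eq_sq₀ (norm_nonneg _) (norm_nonneg _)).mp key

variable {X Y : Type*} [NormedAddCommGroup X] [NormedSpace ℝ X] [NormedAddCommGroup Y]
  [NormedSpace ℝ Y]

theorem linear_of_euclidean {E : Type*} [NormedAddCommGroup E] [InnerProductSpace ℝ E]
    [FiniteDimensional ℝ E] (eX : X ≃L[ℝ] E) (eY : Y ≃L[ℝ] E) {f : X → Y} (hne : ∃ x : X, ‖x‖ = 1)
    (hf : ∀ x, ‖x‖ = 1 → ‖f x‖ = 1) (hsurj : ∀ y, ‖y‖ = 1 → ∃ x, ‖x‖ = 1 ∧ f x = y)
    (hiso : ∀ x y, ‖x‖ = 1 → ‖y‖ = 1 → ‖eY (f x) - eY (f y)‖ = ‖eX x - eX y‖) :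
    ∃ T : X ≃ₗᵢ[ℝ] Y, ∀ x, ‖x‖ = 1 → T x = f x := by
  obtain ⟨x0, hx0⟩ := hne
  set S := {x : X // ‖x‖ = 1} with hS
  set s : S → E := fun x => eX x.1 - eX x0 with hs
  set t : S → E := fun x => eY (f x.1) - eY (f x0) with ht
  have hnorm : ∀ x : S, ‖t x‖ = ‖s x‖ := fun x => hiso x.1 x0 x.2 hx0
  have hsub : ∀ x y : S, ‖t x - t y‖ = ‖s x - s y‖ := by
    intro x y
    simp only [ht, hs]
    rw [sub_sub_sub_cancel_right, sub_sub_sub_cancel_right]
    exact hiso x.1 y.1 x.2 y.2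
  have hgram : ∀ x y : S, ⟪t x, t y⟫ = ⟪s x, s y⟫ := by
    intro x y
    have h1 := norm_sub_sq_real (t x) (t y)
    have h2 := norm_sub_sq_real (s x) (s y)
    rw [hsub, hnorm, hnorm] at h1
    linarith
  set ls := Finsupp.linearCombination ℝ s with hls
  set lt := Finsupp.linearCombination ℝ t with hlt
  have hlc : ∀ c : S →₀ ℝ, ‖lt c‖ = ‖ls c‖ := norm_lc_eq hgram
  have hsingle : ∀ x : S, ls (Finsupp.single x 1) = s x := by intro x; simp [hls]
  have htsingle : ∀ x : S, lt (Finsupp.single x 1) = t x := by intro x; simp [hlt]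
  have hrange : LinearMap.range ls = ⊤ := by
    rw [eq_top_iff]
    intro u _
    have hx0neg : ‖-x0‖ = 1 := by rw [norm_neg, hx0]
    have h0 : eX x0 ∈ LinearMap.range ls := by
      have h1 : s ⟨-x0, hx0neg⟩ ∈ LinearMap.range ls := ⟨_, hsingle _⟩
      have h2 : eX x0 = (-(1 / 2) : ℝ) • s ⟨-x0, hx0neg⟩ := by
        simp only [hs, map_neg]
        module
      rw [h2]
      exact Submodule.smul_mem _ _ h1
    have h1 : ∀ x : X, ‖x‖ = 1 → eX x ∈ LinearMap.range ls := by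
      intro x hx
      have h2 : s ⟨x, hx⟩ ∈ LinearMap.range ls := ⟨_, hsingle _⟩
      have h3 : eX x = s ⟨x, hx⟩ + eX x0 := by simp [hs]
      rw [h3]
      exact Submodule.add_mem _ h2 h0
    obtain ⟨x, rfl⟩ := eX.surjective u
    by_cases hx : x = 0
    · subst hx; simp
    · have h2 : eX x = ‖x‖ • eX (‖x‖⁻¹ • x) := by
        rw [map_smul, smul_smul, mul_inv_cancel₀ (norm_ne_zero_iff.mpr hx), one_smul]
      rw [h2]
      exact Submodule.smul_mem _ _ (h1 _ (by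
        rw [norm_smul, norm_inv, norm_norm, inv_mul_cancel₀ (norm_ne_zero_iff.mpr hx)]))
  obtain ⟨σ, hσ⟩ := ls.exists_rightInverse_of_surjective hrange
  have hσ' : ∀ u, ls (σ u) = u := fun u => by
    have := LinearMap.congr_fun hσ u
    simpa using this
  set L : E →ₗ[ℝ] E := lt ∘ₗ σ with hL
  have hLnorm : ∀ u, ‖L u‖ = ‖u‖ := by
    intro u
    rw [hL, LinearMap.comp_apply, hlc, hσ']
  have hLs : ∀ x : S, L (s x) = t x := by
    intro x
    have h1 : L (s x) - t x = lt (σ (s x) - Finsupp.single x 1) := by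
      rw [map_sub lt, htsingle]; rfl
    have h2 : ‖L (s x) - t x‖ = 0 := by
      rw [h1, hlc, map_sub, hσ', hsingle, sub_self, norm_zero]
    rwa [norm_eq_zero, sub_eq_zero] at h2
  set L' : E ≃ₗᵢ[ℝ] E := (⟨L, hLnorm⟩ : E →ₗᵢ[ℝ] E).toLinearIsometryEquiv rfl with hL'
  have hL'' : ∀ u, L' u = L u := fun u => rfl
  set T0 : X ≃ₗ[ℝ] Y := (eX.toLinearEquiv.trans L'.toLinearEquiv).trans eY.symm.toLinearEquiv
    with hT0
  have hT0' : ∀ x, T0 x = eY.symm (L (eX x)) := fun x => rfl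
  set c : Y := f x0 - T0 x0 with hc
  have hfx : ∀ x, ‖x‖ = 1 → f x = T0 x + c := by
    intro x hx
    have h1 := hLs ⟨x, hx⟩
    simp only [hs, ht] at h1
    have h2 : eY (f x) = L (eX x) - L (eX x0) + eY (f x0) := by
      rw [← map_sub, h1]; abel
    apply eY.injective
    rw [h2, hc, map_add, map_sub, hT0', hT0', eY.apply_symm_apply, eY.apply_symm_apply]
    abel
  have hc0 : c = 0 := by
    by_contra hne
    have hcn : ‖c‖ ≠ 0 := norm_ne_zero_iff.mpr hne
    set v : Y := (-‖c‖⁻¹) • c with hv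
    have hv1 : ‖v‖ = 1 := by
      rw [hv, norm_smul, norm_neg, norm_inv, norm_norm, inv_mul_cancel₀ hcn]
    obtain ⟨x, hx, hfxv⟩ := hsurj v hv1
    have h1 : ‖f (-x)‖ = 1 := hf _ (by rw [norm_neg, hx])
    have h2 : f (-x) = 2 • c - v := by
      rw [hfx _ (by rw [norm_neg, hx]), map_neg, ← hfxv, hfx x hx]
      rw [two_smul]; abel
    have h3 : f (-x) = (2 + ‖c‖⁻¹) • c := by
      rw [h2, hv]
      module
    rw [h3, norm_smul, Real.norm_eq_abs, abs_of_pos (by positivity)] at h1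
    have h4 : (2 + ‖c‖⁻¹) * ‖c‖ = 2 * ‖c‖ + 1 := by
      rw [add_mul, inv_mul_cancel₀ hcn]
    have h5 : 0 < ‖c‖ := norm_pos_iff.mpr hne
    linarith
  have hTf : ∀ x, ‖x‖ = 1 → T0 x = f x := by
    intro x hx
    rw [hfx x hx, hc0, add_zero]
  have hTn : ∀ x, ‖T0 x‖ = ‖x‖ := by
    intro x
    by_cases hx : x = 0
    · simp [hx]
    · have hxn : ‖x‖ ≠ 0 := norm_ne_zero_iff.mpr hx
      have h1 : ‖‖x‖⁻¹ • x‖ = 1 := by
        rw [norm_smul, norm_inv, norm_norm, inv_mul_cancel₀ hxn]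
      have h2 : T0 x = ‖x‖ • T0 (‖x‖⁻¹ • x) := by
        rw [map_smul, smul_smul, mul_inv_cancel₀ hxn, one_smul]
      rw [h2, norm_smul, hTf _ h1, hf _ h1, norm_norm, mul_one]
  exact ⟨⟨T0, hTn⟩, hTf⟩

end Vale.P084
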