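import Mathlib

/-!
P084, Lemma J.  Every finite-dimensional normed space can be put into John position.
-/

open Metric Set Module Filter Topology Matrix
open scoped NNReal ENNReal RealInnerProductSpace

namespace Vale.P084

/-- Convex hulls of compact sets are compact in finite dimension (Carathéodory). -/
theorem isCompact_convexHull_of_isCompact {E : Type*} [NormedAddCommGroup E] [NormedSpace ℝ E]
    [FiniteDimensional ℝ E] {s : Set E} (hs : IsCompact s) : IsCompact (convexHull ℝ s) := by
  classical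
  rcases s.eq_empty_or_nonempty with rfl | ⟨z0, hz0⟩
  · simp
  set N := finrank ℝ E + 1 with hN
  set Φ : (Fin N → ℝ) × (Fin N → E) → E := fun p => ∑ i, p.1 i • p.2 i with hΦ
  have hcont : Continuous Φ := by
    refine continuous_finsetSum _ fun i _ => ?_
    exact ((continuous_apply i).comp continuous_fst).smul ((continuous_apply i).comp continuous_snd)
  set P : Set ((Fin N → ℝ) × (Fin N → E)) := (stdSimplex ℝ (Fin N)) ×ˢ (Set.pi univ fun _ => s)
  have hP : IsCompact P := (isCompact_stdSimplex ℝ (Fin N)).prod (isCompact_univ_pi fun _ => hs)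
  have himage : convexHull ℝ s = Φ '' P := by
    apply Subset.antisymm
    · intro x hx
      obtain ⟨ι, hι, z, w, hz, hind, hw, hsum, hx⟩ := eq_pos_convex_span_of_mem_convexHull hx
      have hcard : Fintype.card ι ≤ Fintype.card (Fin N) := by
        rw [Fintype.card_fin]
        exact (hind.card_le_finrank_succ).trans (by
          have := Submodule.finrank_le (vectorSpan ℝ (Set.range z))
          omega)
      obtain ⟨e⟩ := Function.Embedding.nonempty_of_card_le hcard
      refine ⟨(Function.extend e w 0, Function.extend e z (fun _ => z0)), ⟨?_, ?_⟩, ?_⟩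
      · refine ⟨fun j => ?_, ?_⟩
        · by_cases hj : ∃ i, e i = j
          · obtain ⟨i, rfl⟩ := hj
            simpa [e.injective.extend_apply] using (hw i).le
          · simp [Function.extend_apply' _ _ _ hj]
        · rw [← hsum]
          symm
          refine Fintype.sum_of_injective e e.injective _ _ ?_ ?_
          · intro j hj
            exact Function.extend_apply' _ _ _ hj
          · intro i
            exact (e.injective.extend_apply _ _ _).symm
      · intro j _
        by_cases hj : ∃ i, e i = j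
        · obtain ⟨i, rfl⟩ := hj
          simpa [e.injective.extend_apply] using hz ⟨i, rfl⟩
        · simpa [Function.extend_apply' _ _ _ hj] using hz0
      · rw [← hx]
        simp only [hΦ]
        symm
        refine Fintype.sum_of_injective e e.injective _ _ ?_ ?_
        · intro j hj
          rw [Function.extend_apply' _ _ _ hj]
          simp
        · intro i
          rw [e.injective.extend_apply, e.injective.extend_apply]
    · rintro _ ⟨p, ⟨hp1, hp2⟩, rfl⟩
      refine (convex_convexHull ℝ s).sum_mem (fun i _ => hp1.1 i) hp1.2 fun i _ => ?_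
      exact subset_convexHull ℝ s (hp2 i (mem_univ i))
  rw [himage]
  exact hP.image hcont

/-- A calculus lemma: `(1-t)^n (1 + t/(1-t) s) ≤ 1` for small `t` forces `s ≤ n`. -/
theorem le_of_pow_bound {n : ℕ} {s : ℝ}
    (h : ∀ t : ℝ, 0 < t → t < 1 → (1 - t) ^ n * (1 + t / (1 - t) * s) ≤ 1) : s ≤ n := by
  by_contra hcon
  push Not at hcon
  rcases Nat.eq_zero_or_pos n with hn | hn
  · subst hn
    have := h (1 / 2) (by norm_num) (by norm_num)
    norm_num at this
    simp at hcon
    linarith
  have hn' : (1 : ℝ) ≤ n := by exact_mod_cast hn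
  have hspos : 0 < s := by linarith
  set t : ℝ := (s - n) / (2 * n * s) with ht
  have htpos : 0 < t := by rw [ht]; apply div_pos <;> [linarith; positivity]
  have htn : t * (2 * n) < 1 := by
    rw [ht]
    have : (s - n) / (2 * n * s) * (2 * n) = (s - n) / s := by field_simp
    rw [this, div_lt_one hspos]
    linarith
  have ht1 : t < 1 := by nlinarith
  have hb : 1 + (n : ℝ) * (-t) ≤ (1 + (-t)) ^ n := one_add_mul_le_pow (by linarith) n
  have h1 := h t htpos ht1
  have h1t : 0 < 1 - t := by linarith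
  have h2 : t ≤ t / (1 - t) := by
    rw [le_div_iff₀ h1t]
    nlinarith
  have h3 : (1 - n * t) * (1 + t * s) ≤ 1 := by
    have ha : 0 ≤ 1 - n * t := by nlinarith
    calc (1 - n * t) * (1 + t * s) ≤ (1 - t) ^ n * (1 + t / (1 - t) * s) := by
          apply mul_le_mul _ _ (by positivity) (by positivity)
          · have : (1 + -t) ^ n = (1 - t) ^ n := by rw [← sub_eq_add_neg]
            rw [← this]; linarith
          · gcongr
      _ ≤ 1 := h1
  have h4 : s - n ≤ n * t * s := by
    have h5 : t * (s - n) ≤ t * (n * t * s) := by nlinarith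
    exact le_of_mul_le_mul_left h5 htpos
  have h6 : n * t * s = (s - n) / 2 := by
    rw [ht]; field_simp
  linarith


/-- The matrix `a aᵀ`. -/
def outer {n : ℕ} (a : Fin n → ℝ) : Matrix (Fin n) (Fin n) ℝ := vecMulVec a a

theorem det_outer {n : ℕ} (r : Fin n → ℝ) {t : ℝ} (ht : t < 1) :
    ((1 - t) • (1 : Matrix (Fin n) (Fin n) ℝ) + t • outer r).det
      = (1 - t) ^ n * (1 + t / (1 - t) * (r ⬝ᵥ r)) := by
  have h1 : (1 - t) ≠ 0 := by linarith
  have h2 : (1 - t) • (1 : Matrix (Fin n) (Fin n) ℝ) + t • outer r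
      = (1 - t) • (1 + replicateCol Unit ((t / (1 - t)) • r) * replicateRow Unit r) := by
    rw [smul_add]
    congr 1
    ext i j
    simp [outer, vecMulVec_apply, Matrix.mul_apply]
    field_simp
  rw [h2, det_smul, Fintype.card_fin, det_one_add_replicateCol_mul_replicateRow]
  congr 2
  rw [dotProduct_smul, smul_eq_mul]

/-- The convex set of covariance matrices of the vectors in `K`. -/
def hull {n : ℕ} (K : Set (Fin n → ℝ)) : Set (Matrix (Fin n) (Fin n) ℝ) :=
  convexHull ℝ (outer '' K)

/-- **D-optimal design.** -/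
theorem exists_opt {n : ℕ} {K : Set (Fin n → ℝ)} (hK : IsCompact K)
    (hspan : ∃ G ∈ hull K, 0 < G.det) :
    ∃ B : Matrix (Fin n) (Fin n) ℝ, B.det ≠ 0 ∧ (Bᵀ * B) ∈ hull K ∧
      ∀ r : Fin n → ℝ, (Bᵀ *ᵥ r) ∈ K → r ⬝ᵥ r ≤ n := by
  classical
  let _ : NormedAddCommGroup (Matrix (Fin n) (Fin n) ℝ) := Matrix.normedAddCommGroup
  let _ : NormedSpace ℝ (Matrix (Fin n) (Fin n) ℝ) := Matrix.normedSpace
  have houter : Continuous (outer : (Fin n → ℝ) → Matrix (Fin n) (Fin n) ℝ) := by
    refine continuous_matrix fun i j => ?_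
    simp only [outer, vecMulVec_apply]
    fun_prop
  have hcomp : IsCompact (hull K) := isCompact_convexHull_of_isCompact (hK.image houter)
  have hdetc : Continuous (fun G : Matrix (Fin n) (Fin n) ℝ => G.det) := by
    exact Continuous.matrix_det continuous_id
  obtain ⟨G1, hG1, hG1pos⟩ := hspan
  obtain ⟨G, hG, hmax⟩ := hcomp.exists_isMaxOn ⟨G1, hG1⟩ hdetc.continuousOn
  have hGpos : 0 < G.det := lt_of_lt_of_le hG1pos (hmax hG1)
  have hsemi : ∀ M ∈ hull K, M.PosSemidef := by
    intro M hM
    have hconv : Convex ℝ {M : Matrix (Fin n) (Fin n) ℝ | M.PosSemidef} := by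
      intro A hA B hB a b ha hb _
      exact (hA.smul ha).add (hB.smul hb)
    have hsub : outer '' K ⊆ {M : Matrix (Fin n) (Fin n) ℝ | M.PosSemidef} := by
      rintro _ ⟨a, _, rfl⟩
      have := posSemidef_vecMulVec_self_star a
      simpa [outer] using this
    exact convexHull_min hsub hconv hM
  have hGs : G.PosSemidef := hsemi G hG
  obtain ⟨B, hB⟩ : ∃ B : Matrix (Fin n) (Fin n) ℝ, G = Bᵀ * B := by
    open scoped MatrixOrder in
    refine ⟨CFC.sqrt G, ?_⟩
    have h0 : 0 ≤ G := nonneg_iff_posSemidef.mpr hGs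
    have h1 : CFC.sqrt G * CFC.sqrt G = G := CFC.sqrt_mul_sqrt_self G h0
    have h2 : (CFC.sqrt G).PosSemidef := nonneg_iff_posSemidef.mp (CFC.sqrt_nonneg G)
    have h3 : (CFC.sqrt G)ᵀ = CFC.sqrt G := by
      have := h2.1
      rw [IsHermitian, conjTranspose_eq_transpose_of_trivial] at this
      exact this
    rw [h3, h1]
  have hBdet : B.det ≠ 0 := by
    intro h
    rw [hB, det_mul, h, mul_zero] at hGpos
    exact lt_irrefl _ hGpos
  refine ⟨B, hBdet, hB ▸ hG, ?_⟩
  intro r hr
  apply le_of_pow_bound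
  intro t ht0 ht1
  have hmem : (1 - t) • G + t • outer (Bᵀ *ᵥ r) ∈ hull K := by
    have h1 : outer (Bᵀ *ᵥ r) ∈ hull K := subset_convexHull ℝ _ ⟨_, hr, rfl⟩
    exact (convex_convexHull ℝ (outer '' K)) hG h1 (by linarith) ht0.le (by ring)
  have hle := hmax hmem
  simp only [mem_ofPred_eq] at hle
  have hfac : (1 - t) • G + t • outer (Bᵀ *ᵥ r)
      = Bᵀ * (((1 - t) • (1 : Matrix (Fin n) (Fin n) ℝ) + t • outer r)) * B := by
    have h1 : outer (Bᵀ *ᵥ r) = Bᵀ * outer r * B := by
      simp only [outer]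
      rw [mul_vecMulVec, vecMulVec_mul, ← mulVec_transpose]
    rw [h1, hB]
    rw [mul_add, add_mul]
    simp
  rw [hfac, det_mul, det_mul, det_transpose, det_outer r ht1, hB, det_mul, det_transpose] at hle
  have hB2 : 0 < B.det * B.det := mul_self_pos.mpr hBdet
  have : B.det * B.det * ((1 - t) ^ n * (1 + t / (1 - t) * (r ⬝ᵥ r))) ≤ B.det * B.det * 1 := by
    linarith
  exact le_of_mul_le_mul_left this hB2


/-- The `k`-th standard basis vector of Euclidean space. -/
noncomputable abbrev bv {n : ℕ} (k : Fin n) : EuclideanSpace ℝ (Fin n) :=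
  EuclideanSpace.single k (1 : ℝ)

/-- **John position** of a normed space `X` of dimension `n`: a Euclidean structure `e` on `X`
together with a finite decomposition of the inner product into functionals of norm at most one,
such that every functional of norm at most one has Euclidean norm at most `√n`. -/
structure John (X : Type*) [NormedAddCommGroup X] [NormedSpace ℝ X] (n : ℕ) where
  /-- number of functionals -/
  N : ℕ
  /-- weights -/
  w : Fin N → ℝ
  /-- functionals -/
  ξ : Fin N → (X →L[ℝ] ℝ)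
  /-- Euclidean coordinates -/
  e : X ≃L[ℝ] EuclideanSpace ℝ (Fin n)
  w_nonneg : ∀ i, 0 ≤ w i
  w_sum : ∑ i, w i = 1
  norm_le : ∀ i, ‖ξ i‖ ≤ 1
  decomp : ∀ x y : X, ∑ i, w i * (ξ i x * ξ i y) = ⟪e x, e y⟫
  bound : ∀ η : X →L[ℝ] ℝ, ‖η‖ ≤ 1 → ∑ k, (η (e.symm (bv k))) ^ 2 ≤ n

theorem exists_john (X : Type*) [NormedAddCommGroup X] [NormedSpace ℝ X] [FiniteDimensional ℝ X]
    (hX : 0 < finrank ℝ X) : Nonempty (John X (finrank ℝ X)) := by
  classical
  set n := finrank ℝ X with hn
  let b : Basis (Fin n) ℝ X := Module.finBasis ℝ X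
  let coord : (X →L[ℝ] ℝ) → (Fin n → ℝ) := fun η k => η (b k)
  have hcoord : Continuous coord := by
    refine continuous_pi fun k => ?_
    exact (ContinuousLinearMap.apply ℝ ℝ (b k)).continuous
  set K : Set (Fin n → ℝ) := coord '' closedBall 0 1 with hKdef
  have hK : IsCompact K := (isCompact_closedBall (0 : X →L[ℝ] ℝ) 1).image hcoord
  have hspan : ∃ G ∈ hull K, 0 < G.det := by
    -- coordinate functionals, normalised
    let f : Fin n → (X →L[ℝ] ℝ) := fun k => LinearMap.toContinuousLinearMap (b.coord k)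
    let c : Fin n → ℝ := fun k => (‖f k‖ + 1)⁻¹
    have hc : ∀ k, 0 < c k := fun k => by
      have := norm_nonneg (f k)
      simp only [c]
      positivity
    have hf : ∀ k, c k • f k ∈ closedBall (0 : X →L[ℝ] ℝ) 1 := by
      intro k
      rw [mem_closedBall, dist_zero_right, norm_smul, Real.norm_eq_abs, abs_of_pos (hc k)]
      simp only [c]
      rw [inv_mul_le_iff₀ (by positivity)]
      linarith
    have hcf : ∀ k, coord (c k • f k) = Pi.single k (c k) := by
      intro k
      ext j
      simp only [coord, f, ContinuousLinearMap.smul_apply, smul_eq_mul,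
        LinearMap.coe_toContinuousLinearMap', Basis.coord_apply, Basis.repr_self]
      by_cases hjk : j = k
      · subst hjk; simp
      · rw [Finsupp.single_eq_of_ne (Ne.symm hjk), Pi.single_eq_of_ne hjk, mul_zero]
    have hnpos : (0 : ℝ) < n := by exact_mod_cast hX
    refine ⟨∑ k : Fin n, (1 / (n : ℝ)) • outer (Pi.single k (c k)), ?_, ?_⟩
    · refine (convex_convexHull ℝ _).sum_mem (fun i _ => by positivity) ?_ fun k _ => ?_
      · simp
        field_simp
      · refine subset_convexHull ℝ _ ⟨_, ⟨c k • f k, hf k, rfl⟩, ?_⟩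
        rw [hcf]
    · have : ∑ k : Fin n, (1 / (n : ℝ)) • outer (Pi.single k (c k))
          = diagonal (fun k => (1 / (n : ℝ)) * (c k * c k)) := by
        ext i j
        rw [Matrix.sum_apply]
        simp only [Matrix.smul_apply, outer, vecMulVec_apply, smul_eq_mul]
        by_cases hij : i = j
        · subst hij
          rw [diagonal_apply_eq, Finset.sum_eq_single i]
          · simp
          · intro k _ hk
            rw [Pi.single_eq_of_ne (Ne.symm hk)]
            simp
          · simp
        · rw [diagonal_apply_ne _ hij]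
          refine Finset.sum_eq_zero fun k _ => ?_
          by_cases hk : i = k
          · subst hk
            rw [Pi.single_eq_of_ne (Ne.symm hij)]
            simp
          · rw [Pi.single_eq_of_ne hk]
            simp
      rw [this, det_diagonal]
      refine Finset.prod_pos fun k _ => ?_
      have := hc k
      positivity
  obtain ⟨B, hBdet, hBmem, hBopt⟩ := exists_opt hK hspan
  -- coordinates
  have hBunit : IsUnit B.det := isUnit_iff_ne_zero.mpr hBdet
  let L : X ≃ₗ[ℝ] (Fin n → ℝ) := b.equivFun.trans (Matrix.toLinearEquiv' B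
    ((Matrix.isUnit_iff_isUnit_det B).mpr hBunit |>.invertible))
  have hL : ∀ x, L x = B *ᵥ (b.equivFun x) := by
    intro x
    simp only [L, LinearEquiv.trans_apply]
    rfl
  let e : X ≃L[ℝ] EuclideanSpace ℝ (Fin n) :=
    (L.trans (WithLp.linearEquiv 2 ℝ (Fin n → ℝ)).symm).toContinuousLinearEquiv
  have he : ∀ x, e x = WithLp.toLp 2 (B *ᵥ (b.equivFun x)) := by
    intro x
    rw [← hL]
    rfl
  -- finite decomposition
  have hdec : ∃ (N : ℕ) (w : Fin N → ℝ) (ξ : Fin N → (X →L[ℝ] ℝ)), (∀ i, 0 ≤ w i) ∧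
      ∑ i, w i = 1 ∧ (∀ i, ‖ξ i‖ ≤ 1) ∧ Bᵀ * B = ∑ i, w i • outer (coord (ξ i)) := by
    obtain ⟨ι, hι, z, w, hz, -, hw, hsum, hx⟩ := eq_pos_convex_span_of_mem_convexHull hBmem
    have hz2 : ∀ i, ∃ ξ : X →L[ℝ] ℝ, ‖ξ‖ ≤ 1 ∧ outer (coord ξ) = z i := by
      intro i
      obtain ⟨a, ⟨ξ, hξ, rfl⟩, h2⟩ := hz ⟨i, rfl⟩
      exact ⟨ξ, by simpa using hξ, h2⟩
    choose ξ hξ1 hξ2 using hz2
    let φ := (Fintype.equivFin ι).symm
    refine ⟨Fintype.card ι, w ∘ φ, ξ ∘ φ, fun i => (hw _).le, ?_, fun i => hξ1 _, ?_⟩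
    · rw [← hsum]
      exact φ.sum_comp w
    · rw [← hx]
      simp only [Function.comp_apply, hξ2]
      exact (φ.sum_comp (fun i => w i • z i)).symm
  obtain ⟨N, w, ξ, hw, hwsum, hξ, hBB⟩ := hdec
  have hcoordx : ∀ (η : X →L[ℝ] ℝ) (x : X), η x = coord η ⬝ᵥ (b.equivFun x) := by
    intro η x
    conv_lhs => rw [← b.sum_equivFun x]
    rw [map_sum]
    simp only [map_smul, dotProduct, coord, smul_eq_mul]
    exact Finset.sum_congr rfl fun i _ => mul_comm _ _
  refine ⟨⟨N, w, ξ, e, hw, hwsum, hξ, ?_, ?_⟩⟩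
  · intro x y
    have h1 : ⟪e x, e y⟫ = (B *ᵥ (b.equivFun x)) ⬝ᵥ (B *ᵥ (b.equivFun y)) := by
      rw [he, he, EuclideanSpace.inner_eq_star_dotProduct]
      simp [dotProduct_comm]
    have h2 : (B *ᵥ (b.equivFun x)) ⬝ᵥ (B *ᵥ (b.equivFun y))
        = (b.equivFun x) ⬝ᵥ ((Bᵀ * B) *ᵥ (b.equivFun y)) := by
      rw [← mulVec_mulVec, dotProduct_mulVec (b.equivFun x), vecMul_transpose]
    rw [h1, h2, hBB, sum_mulVec, dotProduct_sum]
    refine Finset.sum_congr rfl fun i _ => ?_
    rw [smul_mulVec, dotProduct_smul, smul_eq_mul]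
    congr 1
    simp only [outer]
    rw [vecMulVec_mulVec, hcoordx (ξ i) x, hcoordx (ξ i) y]
    rw [dotProduct_smul]
    simp [dotProduct_comm, mul_comm]
  · intro η hη
    set r : Fin n → ℝ := fun k => η (e.symm (bv k)) with hr
    have h1 : Bᵀ *ᵥ r = coord η := by
      ext j
      have h3 : e (b j) = ∑ k, B k j • bv k := by
        rw [he]
        ext i
        simp [Matrix.mulVec, dotProduct, Finsupp.single_apply, Pi.single_apply,
          WithLp.ofLp_sum]
      have h4 : b j = ∑ k, B k j • e.symm (bv k) := by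
        rw [← e.symm_apply_apply (b j), h3]
        simp
      simp only [coord]
      conv_rhs => rw [h4]
      simp [Matrix.mulVec, dotProduct, hr]
    have h2 := hBopt r (by rw [h1]; exact ⟨η, by simpa using hη, rfl⟩)
    refine le_trans (le_of_eq ?_) h2
    simp [dotProduct, hr, sq]

end Vale.P084
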