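import Vale.Agent.P084.John

/-!
P084, linear algebra: an operator with Hilbert-Schmidt norm squared at most `n` has `|det| ≤ 1`, and it is an isometry
if `|det| ≥ 1`.
-/

open Metric Set Module Filter Topology Matrix
open scoped NNReal ENNReal RealInnerProductSpace

namespace Vale.P084

/-- Product bounded by one if the sum is at most `n`; equality case. -/
theorem prod_le_one {n : ℕ} {l : Fin n → ℝ} (hl : ∀ i, 0 ≤ l i) (hs : ∑ i, l i ≤ n) :
    ∏ i, l i ≤ 1 ∧ (1 ≤ ∏ i, l i → ∀ i, l i = 1) := by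
  by_cases h0 : ∃ i, l i = 0
  · obtain ⟨i, hi⟩ := h0
    have : ∏ i, l i = 0 := Finset.prod_eq_zero (Finset.mem_univ i) hi
    rw [this]
    exact ⟨zero_le_one, fun h => absurd h (by norm_num)⟩
  push Not at h0
  have hpos : ∀ i, 0 < l i := fun i => lt_of_le_of_ne (hl i) (Ne.symm (h0 i))
  have hprod : 0 < ∏ i, l i := Finset.prod_pos fun i _ => hpos i
  have hlog : Real.log (∏ i, l i) = ∑ i, Real.log (l i) := Real.log_prod fun i _ => h0 i
  have hsum : ∑ i, Real.log (l i) ≤ ∑ i, (l i - 1) :=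
    Finset.sum_le_sum fun i _ => Real.log_le_sub_one_of_pos (hpos i)
  have hsum2 : ∑ i, (l i - 1) ≤ 0 := by
    rw [Finset.sum_sub_distrib]
    simp
    exact hs
  constructor
  · have : Real.log (∏ i, l i) ≤ 0 := by rw [hlog]; linarith
    rwa [Real.log_nonpos_iff hprod.le] at this
  · intro h1 i
    have h2 : 0 ≤ Real.log (∏ i, l i) := Real.log_nonneg h1
    have h3 : ∑ i, ((l i - 1) - Real.log (l i)) ≤ 0 := by
      rw [Finset.sum_sub_distrib]
      rw [hlog] at h2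
      linarith
    have h4 : ∀ j ∈ Finset.univ, 0 ≤ (l j - 1) - Real.log (l j) := fun j _ =>
      sub_nonneg.mpr (Real.log_le_sub_one_of_pos (hpos j))
    have h5 : ∑ i, ((l i - 1) - Real.log (l i)) = 0 :=
      le_antisymm h3 (Finset.sum_nonneg h4)
    have h6 := (Finset.sum_eq_zero_iff_of_nonneg h4).mp h5 i (Finset.mem_univ i)
    by_contra hne
    have := Real.log_lt_sub_one_of_pos (hpos i) hne
    linarith

theorem matrix_bound {n : ℕ} (M : Matrix (Fin n) (Fin n) ℝ) (h : (Mᵀ * M).trace ≤ n) :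
    M.det ^ 2 ≤ 1 ∧ (1 ≤ M.det ^ 2 → Mᵀ * M = 1) := by
  classical
  have hps : (Mᵀ * M).PosSemidef := by
    have := posSemidef_conjTranspose_mul_self M
    rwa [conjTranspose_eq_transpose_of_trivial] at this
  have hH : (Mᵀ * M).IsHermitian := hps.1
  have hl : ∀ i, 0 ≤ hH.eigenvalues i := fun i => hps.eigenvalues_nonneg i
  have htr : ∑ i, hH.eigenvalues i ≤ n := by
    have := hH.trace_eq_sum_eigenvalues
    simp only [RCLike.ofReal_real_eq_id, id_eq] at this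
    rw [← this]; exact h
  have hdet : M.det ^ 2 = ∏ i, hH.eigenvalues i := by
    have := hH.det_eq_prod_eigenvalues
    simp only [RCLike.ofReal_real_eq_id, id_eq] at this
    rw [← this, det_mul, det_transpose, sq]
  obtain ⟨h1, h2⟩ := prod_le_one hl htr
  rw [hdet]
  refine ⟨h1, fun h3 => ?_⟩
  have h4 := h2 h3
  have h5 := hH.spectral_theorem
  have h6 : (RCLike.ofReal ∘ hH.eigenvalues : Fin n → ℝ) = fun _ => (1 : ℝ) := by
    ext i; simp [h4 i]
  rw [h6, diagonal_one, map_one] at h5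
  exact h5

/-- Operators on Euclidean space. -/
theorem operator_bound {n : ℕ} (A : EuclideanSpace ℝ (Fin n) →L[ℝ] EuclideanSpace ℝ (Fin n))
    (h : ∑ k, ‖A (bv k)‖ ^ 2 ≤ n) :
    |A.det| ≤ 1 ∧ (1 ≤ |A.det| → ∀ x, ‖A x‖ = ‖x‖) := by
  classical
  let b := (EuclideanSpace.basisFun (Fin n) ℝ).toBasis
  set M := LinearMap.toMatrix b b (A : EuclideanSpace ℝ (Fin n) →ₗ[ℝ] EuclideanSpace ℝ (Fin n))
    with hM
  have hMij : ∀ i j, M i j = A (bv j) i := by
    intro i j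
    rw [hM, LinearMap.toMatrix_apply]
    simp [b]
  have hdet : A.det = M.det := (LinearMap.det_toMatrix b _).symm
  have htr : (Mᵀ * M).trace = ∑ k, ‖A (bv k)‖ ^ 2 := by
    rw [Matrix.trace]
    refine Finset.sum_congr rfl fun k _ => ?_
    rw [EuclideanSpace.norm_sq_eq]
    simp [Matrix.mul_apply, hMij, sq]
  have hmv : ∀ x : EuclideanSpace ℝ (Fin n), (A x : Fin n → ℝ) = M *ᵥ (x : Fin n → ℝ) := by
    intro x
    have hx : x = ∑ k, x k • bv k := by
      ext i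
      simp [Pi.single_apply, WithLp.ofLp_sum]
    ext i
    have h2 : A x = ∑ k, x k • A (bv k) := by
      conv_lhs => rw [hx]
      rw [map_sum]
      exact Finset.sum_congr rfl fun k _ => map_smul _ _ _
    rw [h2]
    simp only [WithLp.ofLp_sum, Finset.sum_apply, Matrix.mulVec, dotProduct, hMij]
    exact Finset.sum_congr rfl fun k _ => by simp [mul_comm]
  obtain ⟨h1, h2⟩ := matrix_bound M (by rw [htr]; exact h)
  rw [hdet]
  constructor
  · have : |M.det| ^ 2 ≤ 1 ^ 2 := by rw [sq_abs]; simpa using h1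
    exact le_of_sq_le_sq this zero_le_one
  · intro h3 x
    have h4 : 1 ≤ M.det ^ 2 := by
      rw [← sq_abs]; nlinarith
    have h5 := h2 h4
    have h6 : ‖A x‖ ^ 2 = ‖x‖ ^ 2 := by
      rw [EuclideanSpace.norm_sq_eq, EuclideanSpace.norm_sq_eq]
      have e1 : ∑ i, ‖A x i‖ ^ 2 = (M *ᵥ (x : Fin n → ℝ)) ⬝ᵥ (M *ᵥ (x : Fin n → ℝ)) := by
        rw [← hmv]
        simp [dotProduct, sq]
      have e2 : ∑ i, ‖x i‖ ^ 2 = (x : Fin n → ℝ) ⬝ᵥ (x : Fin n → ℝ) := by
        simp [dotProduct, sq]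
      rw [e1, e2]
      have e3 : (M *ᵥ (x : Fin n → ℝ)) ⬝ᵥ (M *ᵥ (x : Fin n → ℝ))
          = (x : Fin n → ℝ) ⬝ᵥ ((Mᵀ * M) *ᵥ (x : Fin n → ℝ)) := by
        rw [← mulVec_mulVec, dotProduct_mulVec (x : Fin n → ℝ), vecMul_transpose]
      rw [e3, h5, one_mulVec]
    exact (sq_eq_sq₀ (norm_nonneg _) (norm_nonneg _)).mp h6

variable {X : Type*} [NormedAddCommGroup X] [NormedSpace ℝ X] {n : ℕ}

/-- The Riesz vector of a functional in the Euclidean structure. -/
noncomputable def John.rz (J : John X n) (η : X →L[ℝ] ℝ) : EuclideanSpace ℝ (Fin n) :=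
  WithLp.toLp 2 (fun k => η (J.e.symm (bv k)))

theorem John.inner_rz (J : John X n) (η : X →L[ℝ] ℝ) (u : EuclideanSpace ℝ (Fin n)) :
    ⟪J.rz η, u⟫ = η (J.e.symm u) := by
  have hu : u = ∑ k, u k • bv k := by
    ext i
    simp [Pi.single_apply, WithLp.ofLp_sum]
  conv_rhs => rw [hu]
  rw [map_sum, map_sum, EuclideanSpace.inner_eq_star_dotProduct]
  simp [dotProduct, John.rz]

theorem John.norm_rz_sq_le (J : John X n) {η : X →L[ℝ] ℝ} (h : ‖η‖ ≤ 1) :
    ‖J.rz η‖ ^ 2 ≤ n := by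
  rw [EuclideanSpace.norm_sq_eq]
  refine le_trans (le_of_eq ?_) (J.bound η h)
  simp [John.rz]

/-- The synthesis operator `c ↦ ∑ w_i c_i r(ξ_i)`. -/
noncomputable def John.syn (J : John X n) (c : Fin J.N → ℝ) : EuclideanSpace ℝ (Fin n) :=
  ∑ i, (J.w i * c i) • J.rz (J.ξ i)

theorem John.inner_syn (J : John X n) (c : Fin J.N → ℝ) (u : EuclideanSpace ℝ (Fin n)) :
    ⟪J.syn c, u⟫ = ∑ i, J.w i * (c i * J.ξ i (J.e.symm u)) := by
  rw [John.syn, sum_inner]
  refine Finset.sum_congr rfl fun i _ => ?_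
  rw [real_inner_smul_left, J.inner_rz]
  ring

theorem John.syn_self (J : John X n) (x : X) : J.syn (fun i => J.ξ i x) = J.e x := by
  refine ext_inner_right ℝ fun u => ?_
  rw [J.inner_syn]
  have := J.decomp x (J.e.symm u)
  rw [this, ContinuousLinearEquiv.apply_symm_apply]

theorem John.norm_syn_sq_le (J : John X n) (c : Fin J.N → ℝ) :
    ‖J.syn c‖ ^ 2 ≤ ∑ i, J.w i * c i ^ 2 := by
  set S := ∑ i, J.w i * c i ^ 2 with hS
  have hS0 : 0 ≤ S := Finset.sum_nonneg fun i _ => mul_nonneg (J.w_nonneg i) (sq_nonneg _)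
  set u := J.syn c with hu
  have h1 : ‖u‖ ^ 2 = ∑ i, J.w i * (c i * J.ξ i (J.e.symm u)) := by
    rw [← J.inner_syn, ← hu, real_inner_self_eq_norm_sq]
  have h2 : ∑ i, J.w i * (J.ξ i (J.e.symm u)) ^ 2 = ‖u‖ ^ 2 := by
    have := J.decomp (J.e.symm u) (J.e.symm u)
    rw [ContinuousLinearEquiv.apply_symm_apply, real_inner_self_eq_norm_sq] at this
    rw [← this]
    exact Finset.sum_congr rfl fun i _ => by ring
  have h3 : 0 ≤ ∑ i, J.w i * (c i - J.ξ i (J.e.symm u)) ^ 2 :=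
    Finset.sum_nonneg fun i _ => mul_nonneg (J.w_nonneg i) (sq_nonneg _)
  have h4 : ∑ i, J.w i * (c i - J.ξ i (J.e.symm u)) ^ 2
      = S - 2 * (∑ i, J.w i * (c i * J.ξ i (J.e.symm u)))
        + ∑ i, J.w i * (J.ξ i (J.e.symm u)) ^ 2 := by
    rw [hS, Finset.mul_sum, ← Finset.sum_sub_distrib, ← Finset.sum_add_distrib]
    exact Finset.sum_congr rfl fun i _ => by ring
  rw [h4, ← h1, h2] at h3
  linarith

/-- The synthesis operator applied to functionals gives an operator. -/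
noncomputable def John.op (J : John X n) {E : Type*} [NormedAddCommGroup E] [NormedSpace ℝ E]
    (ψ : Fin J.N → (E →L[ℝ] ℝ)) : E →L[ℝ] EuclideanSpace ℝ (Fin n) :=
  ∑ i, (J.w i) • (ψ i).smulRight (J.rz (J.ξ i))

theorem John.op_apply (J : John X n) {E : Type*} [NormedAddCommGroup E] [NormedSpace ℝ E]
    (ψ : Fin J.N → (E →L[ℝ] ℝ)) (h : E) : J.op ψ h = J.syn (fun i => ψ i h) := by
  simp only [John.op, John.syn, _root_.sum_apply, _root_.smul_apply,
    ContinuousLinearMap.smulRight_apply, smul_smul]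

/-- Hilbert-Schmidt bound. -/
theorem John.hs_bound (J : John X n) {Z : Type*} [NormedAddCommGroup Z] [NormedSpace ℝ Z]
    (J' : John Z n) (ψ : Fin J.N → (Z →L[ℝ] ℝ)) (hψ : ∀ i, ‖ψ i‖ ≤ 1) :
    ∑ k, ‖J.op ψ (J'.e.symm (bv k))‖ ^ 2 ≤ n := by
  calc ∑ k, ‖J.op ψ (J'.e.symm (bv k))‖ ^ 2
      ≤ ∑ k, ∑ i, J.w i * (ψ i (J'.e.symm (bv k))) ^ 2 := by
        refine Finset.sum_le_sum fun k _ => ?_
        rw [J.op_apply]
        exact J.norm_syn_sq_le _
    _ = ∑ i, J.w i * ∑ k, (ψ i (J'.e.symm (bv k))) ^ 2 := by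
        rw [Finset.sum_comm]
        exact Finset.sum_congr rfl fun i _ => by rw [Finset.mul_sum]
    _ ≤ ∑ i, J.w i * (n : ℝ) := by
        refine Finset.sum_le_sum fun i _ => ?_
        exact mul_le_mul_of_nonneg_left (J'.bound (ψ i) (hψ i)) (J.w_nonneg i)
    _ = n := by rw [← Finset.sum_mul, J.w_sum, one_mul]

end Vale.P084
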