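import Vale.Agent.P084.NullLagrangian
import Vale.Agent.P084.AeBound
import Vale.Agent.P084.LinAlg
import Vale.Agent.P084.Conclusion

/-!
P084, main argument: a pair of 1-Lipschitz maps between unit spheres, inverse to each other, is an isometry for the
Euclidean structures of the John positions.
-/

open MeasureTheory Metric Set Module Filter Topology
open scoped NNReal ENNReal RealInnerProductSpace

namespace Vale.P084

section deriv

variable {X Y Z : Type*} [NormedAddCommGroup X] [NormedSpace ℝ X] [NormedAddCommGroup Y]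
  [NormedSpace ℝ Y] [NormedAddCommGroup Z] [NormedSpace ℝ Z]

/-- Derivative of a composition with a Lipschitz map, assuming that it exists. -/
theorem norm_deriv_comp_le {U : X → Y} {G : Y → Z} {K : ℝ≥0} (hG : LipschitzWith K G) {z : X}
    {U' : X →L[ℝ] Y} {W' : X →L[ℝ] Z} (hU : HasFDerivAt U U' z)
    (hW : HasFDerivAt (fun z => G (U z)) W' z) (h : X) : ‖W' h‖ ≤ K * ‖U' h‖ := by
  have h1 := (hU.hasLineDerivAt h).tendsto_slope_zero_right
  have h2 := (hW.hasLineDerivAt h).tendsto_slope_zero_right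
  refine le_of_tendsto_of_tendsto h2.norm (h1.norm.const_mul (K : ℝ)) ?_
  filter_upwards with t
  rw [norm_smul, norm_smul, mul_left_comm]
  exact mul_le_mul_of_nonneg_left (hG.norm_sub_le _ _) (norm_nonneg _)

end deriv

section pointwise

variable {X Y : Type*} [NormedAddCommGroup X] [NormedSpace ℝ X] [NormedAddCommGroup Y]
  [NormedSpace ℝ Y] {n : ℕ}

/-- The synthesis operator as a continuous linear map. -/
noncomputable def John.synL (J : John X n) : (Fin J.N → ℝ) →L[ℝ] EuclideanSpace ℝ (Fin n) :=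
  LinearMap.toContinuousLinearMap
    { toFun := J.syn
      map_add' := by
        intro a b
        simp only [John.syn, Pi.add_apply, mul_add, add_smul, Finset.sum_add_distrib]
      map_smul' := by
        intro r a
        simp only [John.syn, Pi.smul_apply, smul_eq_mul, RingHom.id_apply, Finset.smul_sum,
          smul_smul]
        exact Finset.sum_congr rfl fun i _ => by congr 1; ring }

theorem John.synL_apply (J : John X n) (c : Fin J.N → ℝ) : J.synL c = J.syn c := rfl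

theorem John.hasFDerivAt_syn (J : John Y n) {F : Fin J.N → X → ℝ} {ψ : Fin J.N → (X →L[ℝ] ℝ)}
    {z : X} (h : ∀ j, HasFDerivAt (F j) (ψ j) z) :
    HasFDerivAt (fun z => J.syn (fun j => F j z)) (J.op ψ) z := by
  have h1 : HasFDerivAt (fun z => fun j => F j z) (ContinuousLinearMap.pi ψ) z :=
    hasFDerivAt_pi.mpr h
  have h2 := (J.synL.hasFDerivAt (x := fun j => F j z)).comp z h1
  have h3 : J.synL.comp (ContinuousLinearMap.pi ψ) = J.op ψ := by
    ext1 x
    rw [J.op_apply]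
    rfl
  rw [h3] at h2
  exact h2

theorem John.lipschitz_syn (J : John Y n) {F : Fin J.N → X → ℝ} {K : ℝ≥0}
    (h : ∀ j, LipschitzWith K (F j)) :
    LipschitzWith (‖J.synL‖₊ * K) (fun z => J.syn (fun j => F j z)) := by
  have h1 : LipschitzWith K (fun z => fun j => F j z) := by
    refine LipschitzWith.of_dist_le_mul fun a b => ?_
    rw [dist_pi_le_iff (by positivity)]
    exact fun j => (h j).dist_le_mul a b
  exact J.synL.lipschitz.comp h1

/-- **Pointwise determinant inequality.** -/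
theorem det_le (JX : John X n) (JY : John Y n) (ψ : Fin JY.N → (X →L[ℝ] ℝ))
    (ζ : Fin JX.N → (X →L[ℝ] ℝ))
    (hζ : ∀ i h, |ζ i h| ≤ ‖JY.e.symm (JY.op ψ h)‖) :
    |((JX.op ζ).comp (JX.e.symm : EuclideanSpace ℝ (Fin n) →L[ℝ] X)).det| ≤
      |((JY.op ψ).comp (JX.e.symm : EuclideanSpace ℝ (Fin n) →L[ℝ] X)).det| := by
  set A := (JY.op ψ).comp (JX.e.symm : EuclideanSpace ℝ (Fin n) →L[ℝ] X) with hA
  set C := (JX.op ζ).comp (JX.e.symm : EuclideanSpace ℝ (Fin n) →L[ℝ] X) with hC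
  have hAap : ∀ u, A u = JY.op ψ (JX.e.symm u) := fun u => rfl
  have hCap : ∀ u, C u = JX.syn (fun i => ζ i (JX.e.symm u)) := fun u => by
    rw [← JX.op_apply]; rfl
  by_cases hdet : A.det = 0
  · have h1 : LinearMap.ker (A : EuclideanSpace ℝ (Fin n) →ₗ[ℝ] _) ≠ ⊥ :=
      LinearMap.det_eq_zero_iff_ker_ne_bot.mp hdet
    obtain ⟨h, hh, hne⟩ := Submodule.exists_mem_ne_zero_of_ne_bot h1
    have hAh : A h = 0 := hh
    have hζ0 : ∀ i, ζ i (JX.e.symm h) = 0 := by
      intro i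
      have := hζ i (JX.e.symm h)
      rw [← hAap, hAh, map_zero, norm_zero] at this
      exact abs_eq_zero.mp (le_antisymm this (abs_nonneg _))
    have hCh : C h = 0 := by
      rw [hCap]
      simp [hζ0, John.syn]
    have hCdet : C.det = 0 := by
      refine LinearMap.det_eq_zero_iff_ker_ne_bot.mpr ?_
      intro hbot
      apply hne
      have : h ∈ LinearMap.ker
          (C : EuclideanSpace ℝ (Fin n) →ₗ[ℝ] EuclideanSpace ℝ (Fin n)) := hCh
      rw [hbot] at this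
      simpa using this
    rw [hCdet, hdet]
  · -- A is invertible
    have hu : IsUnit (LinearMap.det (A : EuclideanSpace ℝ (Fin n) →ₗ[ℝ] _)) :=
      isUnit_iff_ne_zero.mpr hdet
    set A' := LinearEquiv.ofIsUnitDet (f := (A : EuclideanSpace ℝ (Fin n) →ₗ[ℝ] _))
      (v := (EuclideanSpace.basisFun (Fin n) ℝ).toBasis)
      (v' := (EuclideanSpace.basisFun (Fin n) ℝ).toBasis)
      (by rw [LinearMap.det_toMatrix]; exact hu) with hA'
    have hA'ap : ∀ u, A' u = A u := fun u => rfl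
    set Ai : EuclideanSpace ℝ (Fin n) →L[ℝ] EuclideanSpace ℝ (Fin n) :=
      LinearMap.toContinuousLinearMap (A'.symm : EuclideanSpace ℝ (Fin n) →ₗ[ℝ] _) with hAi
    have hAiap : ∀ u, Ai u = A'.symm u := fun u => rfl
    set θ : Fin JX.N → (Y →L[ℝ] ℝ) := fun i =>
      ((ζ i).comp (JX.e.symm : EuclideanSpace ℝ (Fin n) →L[ℝ] X)).comp
        (Ai.comp (JY.e : Y →L[ℝ] EuclideanSpace ℝ (Fin n))) with hθ
    have hθap : ∀ i y, θ i y = ζ i (JX.e.symm (A'.symm (JY.e y))) := fun i y => rfl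
    have hθn : ∀ i, ‖θ i‖ ≤ 1 := by
      intro i
      refine ContinuousLinearMap.opNorm_le_bound _ zero_le_one fun y => ?_
      rw [one_mul, Real.norm_eq_abs, hθap]
      refine (hζ i _).trans (le_of_eq ?_)
      rw [← hAap, ← hA'ap, LinearEquiv.apply_symm_apply, ContinuousLinearEquiv.symm_apply_apply]
    set B := (JX.op θ).comp (JY.e.symm : EuclideanSpace ℝ (Fin n) →L[ℝ] Y) with hB
    have hBdet := (operator_bound B (JX.hs_bound JY θ hθn)).1
    have hCBA : C = B.comp A := by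
      ext1 u
      rw [hCap]
      have : (B.comp A) u = JX.syn (fun i => θ i (JY.e.symm (A u))) := by
        rw [← JX.op_apply]; rfl
      rw [this]
      congr 1
      ext i
      rw [hθap, ContinuousLinearEquiv.apply_symm_apply, ← hA'ap, LinearEquiv.symm_apply_apply]
    have hdetmul : C.det = B.det * A.det := by
      rw [hCBA]
      exact LinearMap.det_comp _ _
    rw [hdetmul, abs_mul]
    exact mul_le_of_le_one_left (abs_nonneg _) hBdet

end pointwise


section main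

variable {X Y : Type*} [NormedAddCommGroup X] [NormedSpace ℝ X] [NormedAddCommGroup Y]
  [NormedSpace ℝ Y] [FiniteDimensional ℝ X] [FiniteDimensional ℝ Y]

/-- McShane extension of `η ∘ f` from the unit sphere. -/
theorem exists_ext {f : X → Y} (hf : ∀ x y, ‖x‖ = 1 → ‖y‖ = 1 → ‖f x - f y‖ ≤ ‖x - y‖)
    {η : Y →L[ℝ] ℝ} (hη : ‖η‖ ≤ 1) :
    ∃ F : X → ℝ, LipschitzWith 1 F ∧ ∀ x, ‖x‖ = 1 → F x = η (f x) := by
  have h1 : LipschitzOnWith 1 (fun x => η (f x)) {x : X | ‖x‖ = 1} := by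
    refine LipschitzOnWith.of_dist_le_mul fun x hx y hy => ?_
    rw [dist_eq_norm, dist_eq_norm, ← map_sub]
    calc ‖η (f x - f y)‖ ≤ ‖η‖ * ‖f x - f y‖ := η.le_opNorm _
      _ ≤ 1 * ‖x - y‖ := by
          gcongr
          exact hf x y hx hy
      _ = ((1 : ℝ≥0) : ℝ) * ‖x - y‖ := by simp
  obtain ⟨F, hF, hEq⟩ := h1.extend_real
  exact ⟨F, hF, fun x hx => (hEq hx).symm⟩

/-- **Half of the Euclidean isometry.** -/
theorem half {n : ℕ} (JX : John X n) (JY : John Y n) {f : X → Y} {g : Y → X}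
    (hf1 : ∀ x, ‖x‖ = 1 → ‖f x‖ = 1)
    (hf2 : ∀ x y, ‖x‖ = 1 → ‖y‖ = 1 → ‖f x - f y‖ ≤ ‖x - y‖)
    (hg2 : ∀ x y, ‖x‖ = 1 → ‖y‖ = 1 → ‖g x - g y‖ ≤ ‖x - y‖)
    (hgf : ∀ x, ‖x‖ = 1 → g (f x) = x) :
    ∀ x y, ‖x‖ = 1 → ‖y‖ = 1 → ‖JY.e (f x) - JY.e (f y)‖ ≤ ‖JX.e x - JX.e y‖ := by
  borelize X
  set μ : Measure X := μH[finrank ℝ X] with hμ
  have hF0 : ∀ j, ∃ F : X → ℝ, LipschitzWith 1 F ∧ ∀ x, ‖x‖ = 1 → F x = JY.ξ j (f x) :=
    fun j => exists_ext hf2 (JY.norm_le j)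
  choose F hF hFf using hF0
  have hG0 : ∀ i, ∃ G : Y → ℝ, LipschitzWith 1 G ∧ ∀ y, ‖y‖ = 1 → G y = JX.ξ i (g y) :=
    fun i => exists_ext hg2 (JX.norm_le i)
  choose G hG hGg using hG0
  -- the maps
  set U' : X → EuclideanSpace ℝ (Fin n) := fun z => JY.syn (fun j => F j z) with hU'
  set U : X → Y := fun z => JY.e.symm (U' z) with hU
  set W : X → X := fun z => JX.e.symm (JX.syn (fun i => G i (U z))) with hW
  have hU'lip : LipschitzWith (‖JY.synL‖₊ * 1) U' := JY.lipschitz_syn hF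
  have hUlip : LipschitzWith
      (‖(JY.e.symm : EuclideanSpace ℝ (Fin n) →L[ℝ] Y)‖₊ * (‖JY.synL‖₊ * 1)) U :=
    (JY.e.symm : EuclideanSpace ℝ (Fin n) →L[ℝ] Y).lipschitz.comp hU'lip
  set KU := (‖(JY.e.symm : EuclideanSpace ℝ (Fin n) →L[ℝ] Y)‖₊ * (‖JY.synL‖₊ * 1)) with hKU
  have hGU : ∀ i, LipschitzWith (1 * KU) (fun z => G i (U z)) := fun i => (hG i).comp hUlip
  have hWlip : LipschitzWith (‖(JX.e.symm : EuclideanSpace ℝ (Fin n) →L[ℝ] X)‖₊ *
      (‖JX.synL‖₊ * (1 * KU))) W :=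
    (JX.e.symm : EuclideanSpace ℝ (Fin n) →L[ℝ] X).lipschitz.comp (JX.lipschitz_syn hGU)
  have hUf : ∀ x, ‖x‖ = 1 → U' x = JY.e (f x) := by
    intro x hx
    simp only [hU']
    rw [← JY.syn_self (f x)]
    congr 1
    ext j
    exact hFf j x hx
  have hUf2 : ∀ x, ‖x‖ = 1 → U x = f x := by
    intro x hx
    simp only [hU]
    rw [hUf x hx, ContinuousLinearEquiv.symm_apply_apply]
  have hWid : ∀ x, ‖x‖ = 1 → W x = x := by
    intro x hx
    have h1 : (fun i => G i (U x)) = fun i => JX.ξ i x := by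
      ext i
      rw [hUf2 x hx, hGg i _ (hf1 x hx), hgf x hx]
    simp only [hW]
    rw [h1, JX.syn_self, ContinuousLinearEquiv.symm_apply_apply]
  have hint := integral_det_eq hWlip hWid
  -- almost everywhere statement
  have hae1 : ∀ᵐ z ∂μ, ∀ j, DifferentiableAt ℝ (F j) z :=
    ae_all_iff.mpr fun j => (hF j).ae_differentiableAt
  have hae2 : ∀ᵐ z ∂μ, ∀ i, DifferentiableAt ℝ (fun z => G i (U z)) z :=
    ae_all_iff.mpr fun i => (hGU i).ae_differentiableAt
  have hpt : ∀ z, (∀ j, DifferentiableAt ℝ (F j) z) →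
      (∀ i, DifferentiableAt ℝ (fun z => G i (U z)) z) →
      (fderiv ℝ W z).det ≤ 1 ∧ ((fderiv ℝ W z).det = 1 →
        ∀ h, ‖JY.op (fun j => fderiv ℝ (F j) z) h‖ = ‖JX.e h‖) := by
    intro z h1 h2
    set ψ : Fin JY.N → (X →L[ℝ] ℝ) := fun j => fderiv ℝ (F j) z with hψ
    set ζ : Fin JX.N → (X →L[ℝ] ℝ) := fun i => fderiv ℝ (fun z => G i (U z)) z with hζ
    have hψn : ∀ j, ‖ψ j‖ ≤ 1 := fun j => by
      simpa using norm_fderiv_le_of_lipschitz ℝ (hF j) (x₀ := z)
    have hdU' : HasFDerivAt U' (JY.op ψ) z := JY.hasFDerivAt_syn fun j => (h1 j).hasFDerivAt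
    have hdU : HasFDerivAt U ((JY.e.symm : EuclideanSpace ℝ (Fin n) →L[ℝ] Y).comp (JY.op ψ)) z :=
      (JY.e.symm : EuclideanSpace ℝ (Fin n) →L[ℝ] Y).hasFDerivAt.comp z hdU'
    have hζb : ∀ i h, |ζ i h| ≤ ‖JY.e.symm (JY.op ψ h)‖ := by
      intro i h
      have := norm_deriv_comp_le (hG i) hdU (h2 i).hasFDerivAt h
      simpa [Real.norm_eq_abs] using this
    have hdW : HasFDerivAt W ((JX.e.symm : EuclideanSpace ℝ (Fin n) →L[ℝ] X).comp (JX.op ζ)) z :=
      (JX.e.symm : EuclideanSpace ℝ (Fin n) →L[ℝ] X).hasFDerivAt.comp z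
        (JX.hasFDerivAt_syn fun i => (h2 i).hasFDerivAt)
    have hdet := det_le JX JY ψ ζ hζb
    set A := (JY.op ψ).comp (JX.e.symm : EuclideanSpace ℝ (Fin n) →L[ℝ] X) with hA
    set C := (JX.op ζ).comp (JX.e.symm : EuclideanSpace ℝ (Fin n) →L[ℝ] X) with hC
    have hWC : (fderiv ℝ W z).det = C.det := by
      rw [hdW.fderiv]
      have := LinearMap.det_conj (C : EuclideanSpace ℝ (Fin n) →ₗ[ℝ] EuclideanSpace ℝ (Fin n))
        JX.e.symm.toLinearEquiv
      rw [ContinuousLinearMap.det, ContinuousLinearMap.det, ← this]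
      congr 1
      ext x
      simp [hC]
    obtain ⟨hA1, hA2⟩ := operator_bound A (JY.hs_bound JX ψ hψn)
    rw [hWC]
    refine ⟨(le_abs_self _).trans (hdet.trans hA1), fun h3 h => ?_⟩
    have h4 : 1 ≤ |A.det| := by
      rw [h3, abs_one] at hdet
      exact hdet
    have h5 := hA2 h4 (JX.e h)
    rw [← h5]
    simp [hA]
  have hone : ∀ᵐ z ∂μ, z ∈ closedBall (0 : X) 1 → (fderiv ℝ W z).det = 1 := by
    have hfin : μ (closedBall (0 : X) 1) < ⊤ := (isCompact_closedBall 0 1).measure_lt_top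
    have hi1 : IntegrableOn (fun z => (fderiv ℝ W z).det) (closedBall 0 1) μ := by
      obtain ⟨C, hC⟩ := (isCompact_closedBall (0 : X →L[ℝ] X)
        (‖(JX.e.symm : EuclideanSpace ℝ (Fin n) →L[ℝ] X)‖₊ *
      (‖JX.synL‖₊ * (1 * KU)) : ℝ≥0)).bddAbove_image
        (f := fun A : X →L[ℝ] X => ‖A.det‖) ContinuousLinearMap.continuous_det.norm.continuousOn
      refine Measure.integrableOn_of_bounded (M := C) hfin.ne ?_ ?_
      · exact (ContinuousLinearMap.continuous_det.measurable.comp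
          (measurable_fderiv ℝ W)).aestronglyMeasurable
      · refine Eventually.of_forall fun z => hC ⟨_, ?_, rfl⟩
        rw [mem_closedBall, dist_zero_right]
        exact norm_fderiv_le_of_lipschitz ℝ hWlip
    have hi2 : IntegrableOn (fun _ : X => (1 : ℝ)) (closedBall 0 1) μ :=
      integrableOn_const hfin.ne
    have h0 : ∫ z in closedBall (0 : X) 1, (1 - (fderiv ℝ W z).det) ∂μ = 0 := by
      rw [integral_sub hi2 hi1, hint, setIntegral_const]
      simp [Measure.real, hμ]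
    have hnn : 0 ≤ᵐ[μ.restrict (closedBall 0 1)] fun z => 1 - (fderiv ℝ W z).det := by
      refine ae_restrict_of_ae ?_
      filter_upwards [hae1, hae2] with z h1 h2
      have := (hpt z h1 h2).1
      simp only [Pi.zero_apply]
      linarith
    have h1 := (setIntegral_eq_zero_iff_of_nonneg_ae hnn (hi2.sub hi1)).mp h0
    have h2 := (ae_restrict_iff' measurableSet_closedBall).mp h1
    filter_upwards [h2] with z hz hzb
    have := hz hzb
    simp only [Pi.zero_apply] at this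
    linarith
  have hder : ∀ᵐ z ∂μ, z ∈ closedBall (0 : X) 1 → ∀ h, HasFDerivAt U'
      (JY.op (fun j => fderiv ℝ (F j) z)) z ∧
      ‖JY.op (fun j => fderiv ℝ (F j) z) h‖ = ‖JX.e h‖ := by
    filter_upwards [hae1, hae2, hone] with z h1 h2 h3 hz h
    exact ⟨JY.hasFDerivAt_syn fun j => (h1 j).hasFDerivAt, (hpt z h1 h2).2 (h3 hz) h⟩
  -- increments in the open ball
  have hinc : ∀ x h : X, ‖x‖ < 1 → ‖x + h‖ < 1 → ‖U' (x + h) - U' x‖ ≤ ‖JX.e h‖ := by
    intro x h hx hxh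
    set u := U' (x + h) - U' x with hu
    have hglip : LipschitzWith (‖innerSL ℝ u‖₊ * (‖JY.synL‖₊ * 1)) (fun z => innerSL ℝ u (U' z)) :=
      (innerSL ℝ u).lipschitz.comp hU'lip
    have h1 := increment_le (μ := μ) hglip hx hxh (c := ‖u‖ * ‖JX.e h‖) (by
      filter_upwards [hder] with z hz hzb
      obtain ⟨hd, hn⟩ := hz hzb h
      have hd2 : HasFDerivAt (fun z => innerSL ℝ u (U' z))
          ((innerSL ℝ u).comp (JY.op (fun j => fderiv ℝ (F j) z))) z :=
        (innerSL ℝ u).hasFDerivAt.comp z hd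
      rw [(hd2.hasLineDerivAt h).lineDeriv]
      rw [← hn]
      simp only [ContinuousLinearMap.comp_apply, innerSL_apply_apply]
      exact real_inner_le_norm _ _)
    have h2 : ‖u‖ ^ 2 ≤ ‖u‖ * ‖JX.e h‖ := by
      refine le_trans (le_of_eq ?_) h1
      rw [← map_sub, ← hu, innerSL_apply_apply, real_inner_self_eq_norm_sq]
    by_cases hu0 : ‖u‖ = 0
    · rw [hu0]; exact norm_nonneg _
    · have hupos : 0 < ‖u‖ := lt_of_le_of_ne (norm_nonneg _) (Ne.symm hu0)
      rw [sq] at h2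
      exact le_of_mul_le_mul_left h2 hupos
  -- pass to the sphere
  intro x y hx hy
  rw [← hUf x hx, ← hUf y hy, ← map_sub]
  have hlim1 : Tendsto (fun t : ℝ => ‖U' (t • x) - U' (t • y)‖) (𝓝[<] 1)
      (𝓝 (‖U' ((1 : ℝ) • x) - U' ((1 : ℝ) • y)‖)) := by
    have hc : Continuous (fun t : ℝ => ‖U' (t • x) - U' (t • y)‖) := by
      have := hU'lip.continuous
      fun_prop
    exact (hc.tendsto 1).mono_left nhdsWithin_le_nhds
  have hlim2 : Tendsto (fun t : ℝ => ‖JX.e (t • x - t • y)‖) (𝓝[<] 1)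
      (𝓝 (‖JX.e ((1 : ℝ) • x - (1 : ℝ) • y)‖)) := by
    have hc : Continuous (fun t : ℝ => ‖JX.e (t • x - t • y)‖) := by fun_prop
    exact (hc.tendsto 1).mono_left nhdsWithin_le_nhds
  rw [one_smul, one_smul] at hlim1 hlim2
  refine le_of_tendsto_of_tendsto hlim1 hlim2 ?_
  have h01 : ∀ᶠ t : ℝ in 𝓝[<] 1, 0 ≤ t := by
    have : ∀ᶠ t : ℝ in 𝓝 1, 0 < t := lt_mem_nhds one_pos
    exact (this.filter_mono nhdsWithin_le_nhds).mono fun t ht => ht.le
  filter_upwards [self_mem_nhdsWithin, h01] with t ht ht0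
  have ht1 : t < 1 := ht
  have hn : ∀ v : X, ‖v‖ = 1 → ‖t • v‖ < 1 := by
    intro v hv
    rw [norm_smul, hv, mul_one, Real.norm_eq_abs, abs_of_nonneg ht0]
    exact ht1
  have := hinc (t • y) (t • x - t • y) (hn y hy) (by
    rw [add_sub_cancel]; exact hn x hx)
  rwa [add_sub_cancel] at this

/-- Dimension comparison. -/
theorem finrank_le {f : X → Y} {g : Y → X} (hf1 : ∀ x, ‖x‖ = 1 → ‖f x‖ = 1)
    (hf2 : ∀ x y, ‖x‖ = 1 → ‖y‖ = 1 → ‖f x - f y‖ ≤ ‖x - y‖)
    (hg2 : ∀ x y, ‖x‖ = 1 → ‖y‖ = 1 → ‖g x - g y‖ ≤ ‖x - y‖)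
    (hgf : ∀ x, ‖x‖ = 1 → g (f x) = x) : finrank ℝ X ≤ finrank ℝ Y := by
  borelize X
  by_contra hcon
  push Not at hcon
  set μ : Measure X := μH[finrank ℝ X] with hμ
  have h1 : LipschitzOnWith 1 f {x : X | ‖x‖ = 1} := by
    refine LipschitzOnWith.of_dist_le_mul fun x hx y hy => ?_
    rw [dist_eq_norm, dist_eq_norm]
    simpa using hf2 x y hx hy
  have h2 : LipschitzOnWith 1 g {x : Y | ‖x‖ = 1} := by
    refine LipschitzOnWith.of_dist_le_mul fun x hx y hy => ?_
    rw [dist_eq_norm, dist_eq_norm]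
    simpa using hg2 x y hx hy
  obtain ⟨f', hf', hff'⟩ := h1.extend_finite_dimension
  obtain ⟨g', hg', hgg'⟩ := h2.extend_finite_dimension
  set W : X → X := fun z => g' (f' z) with hW
  have hWlip := hg'.comp hf'
  have hWid : ∀ x, ‖x‖ = 1 → (g' ∘ f') x = x := by
    intro x hx
    have e1 : f' x = f x := (hff' (show x ∈ {x : X | ‖x‖ = 1} from hx)).symm
    have e2 : g' (f x) = g (f x) :=
      (hgg' (show f x ∈ {x : Y | ‖x‖ = 1} from hf1 x hx)).symm
    rw [Function.comp_apply, e1, e2, hgf x hx]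
  have hint := integral_det_eq hWlip hWid
  have hzero : ∀ᵐ z ∂μ, (fderiv ℝ (g' ∘ f') z).det = 0 := by
    filter_upwards [hf'.ae_differentiableAt, hWlip.ae_differentiableAt] with z hz1 hz2
    have hker : LinearMap.ker (fderiv ℝ f' z : X →ₗ[ℝ] Y) ≠ ⊥ :=
      LinearMap.ker_ne_bot_of_finrank_lt hcon
    obtain ⟨h, hh, hne⟩ := Submodule.exists_mem_ne_zero_of_ne_bot hker
    have hh0 : fderiv ℝ f' z h = 0 := hh
    have h3 := norm_deriv_comp_le hg' hz1.hasFDerivAt hz2.hasFDerivAt h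
    rw [hh0, norm_zero, mul_zero] at h3
    have h4 : fderiv ℝ (g' ∘ f') z h = 0 := norm_le_zero_iff.mp h3
    refine LinearMap.det_eq_zero_iff_ker_ne_bot.mpr ?_
    intro hbot
    apply hne
    have h5 : h ∈ LinearMap.ker (fderiv ℝ (g' ∘ f') z : X →ₗ[ℝ] X) := h4
    rw [hbot] at h5
    simpa using h5
  have h0 : ∫ z in closedBall (0 : X) 1, (fderiv ℝ (g' ∘ f') z).det ∂μ = 0 := by
    rw [integral_congr_ae (ae_restrict_of_ae hzero)]
    simp
  rw [h0] at hint
  have hpos : 0 < (μ (closedBall (0 : X) 1)).toReal :=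
    ENNReal.toReal_pos (measure_closedBall_pos μ 0 one_pos).ne'
      (isCompact_closedBall 0 1).measure_lt_top.ne
  linarith

end main

end Vale.P084
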