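import Mathlib

/-!
P084, Lemma N.  If `W : X → X` is Lipschitz and is the identity on the unit sphere, then the integral of the
Jacobian determinant of `W` over the unit ball is the volume of the ball.
-/

open MeasureTheory Metric Set Module Filter Topology
open scoped NNReal ENNReal

namespace Vale.P084

set_option linter.unusedSectionVars false

variable {X : Type*} [NormedAddCommGroup X] [NormedSpace ℝ X]

/-- A point of norm one on a segment crossing the unit sphere. -/
theorem exists_cross {a b : X} (ha : ‖a‖ ≤ 1) (hb : 1 ≤ ‖b‖) :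
    ∃ x : X, ‖x‖ = 1 ∧ ‖a - x‖ ≤ ‖a - b‖ := by
  have hcont : ContinuousOn (fun t : ℝ => ‖a + t • (b - a)‖) (Icc 0 1) := by fun_prop
  have h1 : (1 : ℝ) ∈ Icc (‖a + (0 : ℝ) • (b - a)‖) (‖a + (1 : ℝ) • (b - a)‖) := by
    constructor
    · simpa using ha
    · simpa using hb
  obtain ⟨t, ht, hx⟩ := intermediate_value_Icc (zero_le_one) hcont h1
  refine ⟨a + t • (b - a), hx, ?_⟩
  have : a - (a + t • (b - a)) = t • (a - b) := by
    rw [smul_sub, smul_sub]; abel
  rw [this, norm_smul, Real.norm_eq_abs, abs_of_nonneg ht.1]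
  exact mul_le_of_le_one_left (norm_nonneg _) ht.2

/-- The displacement, cut off outside the unit ball. -/
noncomputable def disp (W : X → X) (z : X) : X := by
  classical exact if ‖z‖ ≤ 1 then W z - z else 0

theorem disp_of_le {W : X → X} {z : X} (h : ‖z‖ ≤ 1) : disp W z = W z - z := by
  simp [disp, h]

theorem disp_of_lt {W : X → X} {z : X} (h : 1 < ‖z‖) : disp W z = 0 := by
  simp [disp, not_le.mpr h]

theorem disp_of_eq {W : X → X} (hs : ∀ x : X, ‖x‖ = 1 → W x = x) {z : X} (h : ‖z‖ = 1) :
    disp W z = 0 := by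
  rw [disp_of_le h.le, hs z h, sub_self]

theorem disp_of_ge {W : X → X} (hs : ∀ x : X, ‖x‖ = 1 → W x = x) {z : X} (h : 1 ≤ ‖z‖) :
    disp W z = 0 := by
  rcases h.eq_or_lt with h | h
  · exact disp_of_eq hs h.symm
  · exact disp_of_lt h

theorem disp_lipschitz {W : X → X} {K : ℝ≥0} (hW : LipschitzWith K W)
    (hs : ∀ x : X, ‖x‖ = 1 → W x = x) : LipschitzWith (K + 1) (disp W) := by
  have key : ∀ a b : X, ‖a‖ ≤ 1 → ‖b‖ ≤ 1 → ‖(W a - a) - (W b - b)‖ ≤ (K + 1) * ‖a - b‖ := by
    intro a b _ _
    calc ‖(W a - a) - (W b - b)‖ = ‖(W a - W b) - (a - b)‖ := by congr 1; abel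
      _ ≤ ‖W a - W b‖ + ‖a - b‖ := norm_sub_le _ _
      _ ≤ K * ‖a - b‖ + ‖a - b‖ := by
          gcongr
          simpa [dist_eq_norm] using hW.dist_le_mul a b
      _ = (K + 1) * ‖a - b‖ := by ring
  have key2 : ∀ a b : X, ‖a‖ ≤ 1 → 1 ≤ ‖b‖ → ‖disp W a‖ ≤ (K + 1) * ‖a - b‖ := by
    intro a b ha hb
    obtain ⟨x, hx, hax⟩ := exists_cross ha hb
    have h := key a x ha hx.le
    rw [hs x hx, sub_self, sub_zero] at h
    rw [disp_of_le ha]
    refine h.trans ?_
    gcongr
  refine LipschitzWith.of_dist_le_mul fun a b => ?_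
  rw [dist_eq_norm, dist_eq_norm]
  push_cast
  rcases le_total ‖a‖ 1 with ha | ha <;> rcases le_total ‖b‖ 1 with hb | hb
  · rw [disp_of_le ha, disp_of_le hb]; exact key a b ha hb
  · rw [disp_of_ge hs hb, sub_zero]; exact key2 a b ha hb
  · rw [disp_of_ge hs ha, zero_sub, norm_neg, norm_sub_rev]; exact key2 b a hb ha
  · rw [disp_of_ge hs ha, disp_of_ge hs hb, sub_self, norm_zero]; positivity

/-- The perturbed identity `z ↦ z + t V z`. -/
theorem perturb_inj {V : X → X} {K : ℝ≥0} (hV : LipschitzWith K V) {t : ℝ} (ht : 0 ≤ t)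
    (htK : t * K < 1) : Function.Injective (fun z => z + t • V z) := by
  intro a b hab
  simp only at hab
  have h1 : a - b = t • (V b - V a) := by
    rw [smul_sub]
    have : a - b = (a + t • V a) - (b + t • V b) + (t • V b - t • V a) := by abel
    rw [this, hab]; abel
  have h2 : ‖a - b‖ ≤ (t * K) * ‖a - b‖ := by
    calc ‖a - b‖ = t * ‖V b - V a‖ := by
          rw [h1, norm_smul, Real.norm_eq_abs, abs_of_nonneg ht]
      _ ≤ t * (K * ‖b - a‖) := by
          gcongr
          simpa [dist_eq_norm] using hV.dist_le_mul b a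
      _ = (t * K) * ‖a - b‖ := by rw [norm_sub_rev]; ring
  have h3 : ‖a - b‖ = 0 := by
    by_contra hne
    have hpos : 0 < ‖a - b‖ := lt_of_le_of_ne (norm_nonneg _) (Ne.symm hne)
    nlinarith
  rwa [norm_eq_zero, sub_eq_zero] at h3

theorem perturb_surj [CompleteSpace X] {V : X → X} {K : ℝ≥0} (hV : LipschitzWith K V) {t : ℝ}
    (ht : 0 ≤ t) (htK : t * K < 1) : Function.Surjective (fun z => z + t • V z) := by
  intro y
  set g : X → X := fun z => y - t • V z with hg
  have hlip : LipschitzWith (t.toNNReal * K) g := by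
    refine LipschitzWith.of_dist_le_mul fun a b => ?_
    rw [dist_eq_norm, dist_eq_norm]
    have : g a - g b = t • (V b - V a) := by simp only [hg, smul_sub]; abel
    rw [this, norm_smul, Real.norm_eq_abs, abs_of_nonneg ht]
    push_cast
    rw [Real.coe_toNNReal t ht, mul_assoc]
    gcongr
    have := hV.dist_le_mul b a
    rwa [dist_eq_norm, dist_eq_norm, norm_sub_rev b a] at this
  have hc : ContractingWith (t.toNNReal * K) g := by
    refine ⟨?_, hlip⟩
    have : ((t.toNNReal * K : ℝ≥0) : ℝ) < 1 := by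
      push_cast
      rwa [Real.coe_toNNReal t ht]
    exact_mod_cast this
  have : Nonempty X := ⟨0⟩
  refine ⟨ContractingWith.fixedPoint g hc, ?_⟩
  have := hc.fixedPoint_isFixedPt
  have h2 : y - t • V (ContractingWith.fixedPoint g hc) = ContractingWith.fixedPoint g hc := this
  simp only
  nth_rewrite 1 [← h2]
  abel

theorem perturb_image_ball [CompleteSpace X] {V : X → X} {K : ℝ≥0} (hV : LipschitzWith K V)
    (hV0 : ∀ z : X, 1 ≤ ‖z‖ → V z = 0) {t : ℝ} (ht : 0 ≤ t) (htK : t * K < 1) :
    (fun z => z + t • V z) '' closedBall 0 1 = closedBall 0 1 := by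
  have hinj := perturb_inj hV ht htK
  have hsurj := perturb_surj hV ht htK
  apply Subset.antisymm
  · rintro _ ⟨z, hz, rfl⟩
    by_contra hcon
    simp only [mem_closedBall, dist_zero_right, not_le] at hcon hz
    have h1 : V (z + t • V z) = 0 := hV0 _ hcon.le
    have h2 : (fun z => z + t • V z) (z + t • V z) = (fun z => z + t • V z) z := by
      simp [h1]
    have h3 := hinj h2
    rw [h3] at hcon
    linarith
  · intro y hy
    obtain ⟨z, rfl⟩ := hsurj y
    refine ⟨z, ?_, rfl⟩
    by_contra hcon
    simp only [mem_closedBall, dist_zero_right, not_le] at hcon hy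
    have h1 : V z = 0 := hV0 _ hcon.le
    simp only [h1, smul_zero, add_zero] at hy
    linarith

/-- `det (1 + t A)` is a polynomial in `t` of degree at most the dimension, hence recovered by
interpolation. -/
theorem det_interp [FiniteDimensional ℝ X] (A : X →L[ℝ] X) (v : ℕ → ℝ)
    (hv : Set.InjOn v (Finset.range (finrank ℝ X + 1))) (t : ℝ) :
    (1 + t • A).det = ∑ i ∈ Finset.range (finrank ℝ X + 1),
      (1 + v i • A).det * (Lagrange.basis (Finset.range (finrank ℝ X + 1)) v i).eval t := by
  classical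
  let b := Module.finBasis ℝ X
  set M := LinearMap.toMatrix b b (A : X →ₗ[ℝ] X) with hM
  set P : Polynomial ℝ := ((Polynomial.X : Polynomial ℝ) • M.map Polynomial.C
    + (1 : Matrix _ _ ℝ).map Polynomial.C).det with hP
  have heval : ∀ s : ℝ, P.eval s = (1 + s • A).det := by
    intro s
    have h1 : P.eval s = (1 + s • M).det := by
      rw [hP]
      rw [← Polynomial.coe_evalRingHom, RingHom.map_det]
      congr 1
      ext i j
      by_cases hij : i = j
      · subst hij
        simp [Matrix.map_apply, Matrix.add_apply]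
        ring
      · simp [Matrix.map_apply, Matrix.add_apply, Matrix.one_apply, hij]
        ring
    rw [h1]
    have h2 : (1 + s • M) = LinearMap.toMatrix b b (1 + s • (A : X →ₗ[ℝ] X)) := by
      rw [map_add, map_smul, LinearMap.toMatrix_one]
    rw [h2, LinearMap.det_toMatrix]
    rfl
  have hdeg : P.degree < (Finset.range (finrank ℝ X + 1)).card := by
    rw [Finset.card_range]
    have := Polynomial.natDegree_det_X_add_C_le M (1 : Matrix _ _ ℝ)
    rw [Fintype.card_fin] at this
    refine lt_of_le_of_lt Polynomial.degree_le_natDegree ?_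
    exact_mod_cast Nat.lt_succ_of_le this
  have hint := Lagrange.eq_interpolate hv hdeg
  rw [← heval t, hint, Lagrange.interpolate_apply, Polynomial.eval_finsetSum]
  refine Finset.sum_congr rfl fun i _ => ?_
  rw [Polynomial.eval_mul, Polynomial.eval_C, ← heval]


variable [FiniteDimensional ℝ X] [MeasurableSpace X] [BorelSpace X]

/-- Lipschitz maps send null sets to null sets (for the Hausdorff measure of the top dimension). -/
theorem null_image {f : X → X} {K : ℝ≥0} (hf : LipschitzWith K f) {s : Set X}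
    (hs : (μH[finrank ℝ X] : Measure X) s = 0) :
    (μH[finrank ℝ X] : Measure X) (f '' s) = 0 := by
  have := hf.hausdorffMeasure_image_le (d := (finrank ℝ X : ℝ)) (by positivity) s
  rw [hs, mul_zero] at this
  exact le_antisymm this bot_le

/-- Change of variables for `z ↦ z + t V z`. -/
theorem perturb_integral {V : X → X} {K : ℝ≥0} (hV : LipschitzWith K V)
    (hV0 : ∀ z : X, 1 ≤ ‖z‖ → V z = 0) {t : ℝ} (ht : 0 ≤ t) (htK : t * K < 1)
    (hpos : ∀ A : X →L[ℝ] X, ‖A‖ ≤ K → 0 ≤ (1 + t • A).det) :
    ∫ z in closedBall (0 : X) 1, (1 + t • fderiv ℝ V z).det ∂(μH[finrank ℝ X] : Measure X)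
      = (μH[finrank ℝ X] (closedBall (0 : X) 1)).toReal := by
  set μ : Measure X := μH[finrank ℝ X] with hμ
  set φ : X → X := fun z => z + t • V z with hφ
  set D : Set X := {z | DifferentiableAt ℝ V z} with hD
  have hDm : MeasurableSet D := measurableSet_of_differentiableAt ℝ V
  have hDae : ∀ᵐ z ∂μ, z ∈ D := hV.ae_differentiableAt
  have hDnull : μ Dᶜ = 0 := mem_ae_iff.mp hDae
  set s : Set X := closedBall 0 1 ∩ D with hs
  have hsm : MeasurableSet s := measurableSet_closedBall.inter hDm
  have hder : ∀ z ∈ s, HasFDerivWithinAt φ (1 + t • fderiv ℝ V z) s z := by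
    intro z hz
    have h1 : HasFDerivAt V (fderiv ℝ V z) z := DifferentiableAt.hasFDerivAt hz.2
    have h2 : HasFDerivAt φ (ContinuousLinearMap.id ℝ X + t • fderiv ℝ V z) z :=
      (hasFDerivAt_id z).add (h1.const_smul t)
    exact h2.hasFDerivWithinAt
  have hinj : InjOn φ s := (perturb_inj hV ht htK).injOn
  have hcv := lintegral_abs_det_fderiv_eq_addHaar_image μ hsm hder hinj
  have hφlip : LipschitzWith (1 + t.toNNReal * K) φ := by
    have h1 : LipschitzWith (t.toNNReal * K) (fun z => t • V z) := by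
      refine LipschitzWith.of_dist_le_mul fun a b => ?_
      rw [dist_eq_norm, dist_eq_norm, ← smul_sub, norm_smul, Real.norm_eq_abs, abs_of_nonneg ht]
      push_cast
      rw [Real.coe_toNNReal t ht, mul_assoc]
      gcongr
      simpa [dist_eq_norm] using hV.dist_le_mul a b
    exact LipschitzWith.id.add h1
  have himage : μ (φ '' s) = μ (closedBall 0 1) := by
    apply le_antisymm
    · apply measure_mono
      rw [← perturb_image_ball hV hV0 ht htK]
      exact image_mono inter_subset_left
    · have hsub : closedBall (0 : X) 1 ⊆ φ '' s ∪ φ '' Dᶜ := by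
        rw [← perturb_image_ball hV hV0 ht htK, ← image_union]
        apply image_mono
        intro z hz
        by_cases h : z ∈ D
        · exact Or.inl ⟨hz, h⟩
        · exact Or.inr h
      calc μ (closedBall 0 1) ≤ μ (φ '' s ∪ φ '' Dᶜ) := measure_mono hsub
        _ ≤ μ (φ '' s) + μ (φ '' Dᶜ) := measure_union_le _ _
        _ = μ (φ '' s) := by rw [null_image hφlip hDnull, add_zero]
  have hfin : μ (closedBall (0 : X) 1) ≠ ⊤ := (isCompact_closedBall 0 1).measure_lt_top.ne
  have hae : (closedBall (0 : X) 1 : Set X) =ᵐ[μ] s := by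
    have : s =ᵐ[μ] closedBall (0 : X) 1 := by
      have h2 : ∀ᵐ z ∂μ, (z ∈ s) = (z ∈ closedBall (0 : X) 1) := by
        filter_upwards [hDae] with z hz
        exact propext ⟨fun h => h.1, fun h => ⟨h, hz⟩⟩
      exact h2
    exact this.symm
  have hnn : ∀ z, 0 ≤ (1 + t • fderiv ℝ V z).det := by
    intro z
    apply hpos
    exact norm_fderiv_le_of_lipschitz ℝ hV
  rw [setIntegral_congr_set hae]
  rw [integral_eq_lintegral_of_nonneg_ae (Eventually.of_forall hnn)]
  · congr 1
    rw [← himage, ← hcv]
    refine lintegral_congr fun z => ?_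
    rw [abs_of_nonneg (hnn z)]
  · have hm : Measurable (fun z => (1 + t • fderiv ℝ V z).det) := by
      have h1 : Measurable (fderiv ℝ V) := measurable_fderiv ℝ V
      have h2 : Continuous (fun A : X →L[ℝ] X => (1 + t • A).det) := by
        exact ContinuousLinearMap.continuous_det.comp (by fun_prop)
      exact h2.measurable.comp h1
    exact hm.aestronglyMeasurable


theorem det_bounded (K : ℝ≥0) (t : ℝ) :
    ∃ C : ℝ, ∀ A : X →L[ℝ] X, ‖A‖ ≤ K → ‖(1 + t • A).det‖ ≤ C := by
  have h2 : Continuous (fun A : X →L[ℝ] X => ‖(1 + t • A).det‖) :=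
    (ContinuousLinearMap.continuous_det.comp (by fun_prop)).norm
  have hc : IsCompact (closedBall (0 : X →L[ℝ] X) K) := isCompact_closedBall _ _
  obtain ⟨C, hC⟩ := hc.bddAbove_image h2.continuousOn
  refine ⟨C, fun A hA => hC ⟨A, by simpa using hA, rfl⟩⟩

theorem measurable_det_perturb (V : X → X) (t : ℝ) :
    Measurable (fun z => (1 + t • fderiv ℝ V z).det) := by
  have h1 : Measurable (fderiv ℝ V) := measurable_fderiv ℝ V
  have h2 : Continuous (fun A : X →L[ℝ] X => (1 + t • A).det) :=
    ContinuousLinearMap.continuous_det.comp (by fun_prop)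
  exact h2.measurable.comp h1

theorem integrableOn_det_perturb {V : X → X} {K : ℝ≥0} (hV : LipschitzWith K V) (t : ℝ) :
    IntegrableOn (fun z => (1 + t • fderiv ℝ V z).det) (closedBall 0 1)
      (μH[finrank ℝ X] : Measure X) := by
  obtain ⟨C, hC⟩ := det_bounded (X := X) K t
  have hfin : (μH[finrank ℝ X] : Measure X) (closedBall (0 : X) 1) < ⊤ :=
    (isCompact_closedBall 0 1).measure_lt_top
  refine Measure.integrableOn_of_bounded (M := C) hfin.ne
    (measurable_det_perturb V t).aestronglyMeasurable ?_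
  exact Eventually.of_forall fun z => hC _ (norm_fderiv_le_of_lipschitz ℝ hV)

/-- **Lemma N.** -/
theorem integral_det_eq {W : X → X} {K : ℝ≥0} (hW : LipschitzWith K W)
    (hs : ∀ x : X, ‖x‖ = 1 → W x = x) :
    ∫ z in closedBall (0 : X) 1, (fderiv ℝ W z).det ∂(μH[finrank ℝ X] : Measure X)
      = (μH[finrank ℝ X] (closedBall (0 : X) 1)).toReal := by
  set μ : Measure X := μH[finrank ℝ X] with hμ
  set V := disp W with hVdef
  have hV : LipschitzWith (K + 1) V := disp_lipschitz hW hs
  have hV0 : ∀ z : X, 1 ≤ ‖z‖ → V z = 0 := fun z hz => disp_of_ge hs hz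
  set k : ℝ := ((K + 1 : ℝ≥0) : ℝ) with hk
  have hk1 : 1 ≤ k := by rw [hk]; push_cast; linarith [K.2]
  -- positivity of the determinant near the identity
  have hdet : ∃ δ > 0, ∀ B : X →L[ℝ] X, ‖B - 1‖ < δ → 0 < B.det := by
    have h1 : ContinuousAt (fun B : X →L[ℝ] X => B.det) 1 :=
      ContinuousLinearMap.continuous_det.continuousAt
    have h2 : (0 : ℝ) < (1 : X →L[ℝ] X).det := by
      have : (1 : X →L[ℝ] X).det = 1 := LinearMap.det_id
      rw [this]; exact one_pos
    have h3 := h1.eventually (lt_mem_nhds h2)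
    obtain ⟨δ, hδ, h⟩ := Metric.eventually_nhds_iff.mp h3
    exact ⟨δ, hδ, fun B hB => h (by rwa [dist_eq_norm])⟩
  obtain ⟨δ, hδ, hpos⟩ := hdet
  set n := finrank ℝ X with hn
  set τ : ℝ := min 1 δ / (2 * k * (n + 1)) with hτ
  have hτpos : 0 < τ := by rw [hτ]; positivity
  set v : ℕ → ℝ := fun i => τ * i with hv
  have hvinj : Set.InjOn v (Finset.range (n + 1)) := by
    intro a _ b _ hab
    simp only [hv] at hab
    have := mul_left_cancel₀ hτpos.ne' hab
    exact_mod_cast this
  have hvk : ∀ i ∈ Finset.range (n + 1), 0 ≤ v i ∧ v i * k < min 1 δ := by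
    intro i hi
    refine ⟨by simp only [hv]; positivity, ?_⟩
    have hi' : (i : ℝ) < n + 1 := by
      have := Finset.mem_range.mp hi
      exact_mod_cast this
    have hm : 0 < min 1 δ := by positivity
    have h1 : v i * k ≤ τ * (n + 1) * k := by
      simp only [hv]
      gcongr
    have h2 : τ * (n + 1) * k = min 1 δ / 2 := by
      rw [hτ]; field_simp
    linarith
  have hint : ∀ i ∈ Finset.range (n + 1),
      ∫ z in closedBall (0 : X) 1, (1 + v i • fderiv ℝ V z).det ∂μ
        = (μ (closedBall (0 : X) 1)).toReal := by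
    intro i hi
    obtain ⟨h0, h1⟩ := hvk i hi
    refine perturb_integral hV hV0 h0 (lt_of_lt_of_le h1 (min_le_left _ _)) ?_
    intro A hA
    refine (hpos _ ?_).le
    rw [add_sub_cancel_left, norm_smul, Real.norm_eq_abs, abs_of_nonneg h0]
    calc v i * ‖A‖ ≤ v i * k := by gcongr
      _ < δ := lt_of_lt_of_le h1 (min_le_right _ _)
  have hone : ∫ z in closedBall (0 : X) 1, (1 + (1 : ℝ) • fderiv ℝ V z).det ∂μ
      = (μ (closedBall (0 : X) 1)).toReal := by
    have h1 : ∀ z, (1 + (1 : ℝ) • fderiv ℝ V z).det = ∑ i ∈ Finset.range (n + 1),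
        (1 + v i • fderiv ℝ V z).det *
          (Lagrange.basis (Finset.range (n + 1)) v i).eval 1 := fun z =>
      det_interp (fderiv ℝ V z) v hvinj 1
    simp_rw [h1]
    rw [integral_finset_sum]
    · have h2 : ∀ i ∈ Finset.range (n + 1),
          ∫ z in closedBall (0 : X) 1, (1 + v i • fderiv ℝ V z).det *
            (Lagrange.basis (Finset.range (n + 1)) v i).eval 1 ∂μ
          = (μ (closedBall (0 : X) 1)).toReal *
            (Lagrange.basis (Finset.range (n + 1)) v i).eval 1 := by
        intro i hi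
        rw [integral_mul_const, hint i hi]
      rw [Finset.sum_congr rfl h2, ← Finset.mul_sum, ← Polynomial.eval_finsetSum,
        Lagrange.sum_basis hvinj ⟨0, by simp⟩, Polynomial.eval_one, mul_one]
    · intro i _
      exact (integrableOn_det_perturb hV (v i)).mul_const _
  rw [← hone]
  refine setIntegral_congr_ae measurableSet_closedBall ?_
  have hsph : ∀ᵐ z ∂μ, z ∉ sphere (0 : X) 1 := by
    rcases subsingleton_or_nontrivial X with hX | hX
    · refine Eventually.of_forall fun z hz => ?_
      have : z = 0 := Subsingleton.elim _ _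
      rw [this] at hz
      simp at hz
    · have : μ (sphere (0 : X) 1) = 0 := Measure.addHaar_sphere μ 0 1
      exact measure_eq_zero_iff_ae_notMem.mp this
  filter_upwards [hW.ae_differentiableAt, hsph] with z hz hz1 hz2
  have hz3 : z ∈ ball (0 : X) 1 := by
    rw [mem_ball]
    rcases (mem_closedBall.mp hz2).lt_or_eq with h | h
    · exact h
    · exact absurd (mem_sphere.mpr h) hz1
  have hev : V =ᶠ[𝓝 z] fun y => W y - y := by
    filter_upwards [isOpen_ball.mem_nhds hz3] with y hy
    exact disp_of_le (by simpa using (mem_ball.mp hy).le)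
  have hfd : fderiv ℝ V z = fderiv ℝ W z - 1 := by
    rw [hev.fderiv_eq]
    exact (hz.hasFDerivAt.sub (hasFDerivAt_id z)).fderiv
  rw [hfd, one_smul]
  congr 1
  abel

end Vale.P084
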